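import Vale.Agent.Lib.P329.Walk

/-! An abstract unit-step walk over a control automaton. -/

namespace Vale.Agent.Lib.P329

set_option linter.unusedSectionVars false

section Gen

variable {Q S : Type} [DecidableEq Q]

lemma arun_replicate' (δ : Q → S → Q) (r : Q) (u : List S) (k : ℕ) (s : St Q) :
    arun δ r s (List.replicate k u).flatten = (fun s => arun δ r s u)^[k] s := by
  induction k generalizing s with
  | zero => rfl
  | succ k ih =>
    rw [List.replicate_succ, List.flatten_cons, arun_append, ih, Function.iterate_succ_apply]

lemma nonlive_iterate' (δ : Q → S → Q) (r : Q) (u : List S)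
    {s : St Q} (hs : ∀ p, s ≠ live p) (j : ℕ) (p : Q) :
    (fun s => arun δ r s u)^[j] s ≠ live p := by
  induction j generalizing s with
  | zero => exact hs p
  | succ j ih =>
    rw [Function.iterate_succ_apply]
    apply ih
    intro p'
    rcases s with _ | _ | q
    · rw [arun_none]; simp
    · exact arun_fin_ne_live δ r u p'
    · exact absurd rfl (hs q)

end Gen

section Abs

variable {C S : Type} [DecidableEq C] (step : C → S → C) (d : C → S → ℤ)

/-- The integer displacement along a word. -/
def netC : C → List S → ℤ
  | _, [] => 0
  | c, a :: w => d c a + netC (step c a) w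

@[simp] lemma netC_nil (c : C) : netC step d c [] = 0 := rfl
@[simp] lemma netC_cons (c : C) (a : S) (w : List S) :
    netC step d c (a :: w) = d c a + netC step d (step c a) w := rfl

lemma netC_append (c : C) (u v : List S) :
    netC step d c (u ++ v) = netC step d c u + netC step d (run step c u) v := by
  induction u generalizing c with
  | nil => simp
  | cons a u ih =>
    simp only [List.cons_append, netC_cons, run_cons]
    rw [ih]
    ring

lemma netC_replicate (c : C) (u : List S) (hu : run step c u = c) (k : ℕ) :
    netC step d c (List.replicate k u).flatten = k * netC step d c u := by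
  induction k with
  | zero => simp
  | succ k ih =>
    rw [List.replicate_succ, List.flatten_cons, netC_append, hu, ih]
    push_cast
    ring

lemma run_replicate_fixed (c : C) (u : List S) (hu : run step c u = c) (k : ℕ) :
    run step c (List.replicate k u).flatten = c := by
  induction k with
  | zero => rfl
  | succ k ih =>
    rw [List.replicate_succ, List.flatten_cons, run_append, hu, ih]

variable (m : ℕ)

/-- The transition function of the walk over the control automaton. -/
def qstep (q : C × ZMod m) (a : S) : C × ZMod m :=
  (step q.1 a, q.2 + (d q.1 a : ZMod m))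

lemma run_qstep (c : C) (n : ZMod m) (w : List S) :
    run (qstep step d m) (c, n) w = (run step c w, n + (netC step d c w : ZMod m)) := by
  induction w generalizing c n with
  | nil => simp
  | cons a w ih =>
    simp only [run_cons, netC_cons]
    change run (qstep step d m) (step c a, n + (d c a : ZMod m)) w = _
    rw [ih]
    simp [add_assoc]

variable [NeZero m] (c₀ : C)

/-- The root of the walk. -/
abbrev qroot : C × ZMod m := (c₀, 0)

variable {step d m c₀}

lemma val_path' (hd : ∀ c a, |d c a| ≤ 1) (harr : ∀ c a, d c a ≠ 0 → step c a = c₀)
    {w : List S} {c c' : C} {n n' : ZMod m}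
    (h : arun (qstep step d m) (qroot m c₀) (live (c, n)) w = live (c', n')) (h0 : n ≠ 0) :
    n' ≠ 0 ∧ (n'.val : ℤ) = n.val + netC step d c w := by
  induction w generalizing c n with
  | nil =>
    simp only [arun_nil, Option.some.injEq, Prod.mk.injEq] at h
    obtain ⟨-, rfl⟩ := h
    simpa using h0
  | cons a w ih =>
    rw [arun_cons] at h
    have hq : qstep step d m (c, n) a = (step c a, n + (d c a : ZMod m)) := rfl
    by_cases hd0 : d c a = 0
    · have hr : qstep step d m (c, n) a ≠ qroot m c₀ := by
        rw [hq, hd0]
        intro h3
        simp only [Int.cast_zero, add_zero, Prod.mk.injEq] at h3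
        exact h0 h3.2
      rw [astep_live _ _ _ _ hr, hq, hd0] at h
      simp only [Int.cast_zero, add_zero] at h
      obtain ⟨h1, h2⟩ := ih h h0
      refine ⟨h1, ?_⟩
      rw [netC_cons, hd0, h2]
      ring
    · have hs := harr c a hd0
      by_cases hr : qstep step d m (c, n) a = qroot m c₀
      · rw [astep_root _ _ _ _ hr] at h
        exact absurd h (arun_fin_ne_live _ _ _ _)
      · rw [astep_live _ _ _ _ hr, hq] at h
        have hz : n + (d c a : ZMod m) ≠ 0 := by
          intro hz
          apply hr
          rw [hq, hs, hz]
        obtain ⟨h1, h2⟩ := ih h hz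
        refine ⟨h1, ?_⟩
        rw [val_step n (d c a) (hd c a) h0 hz] at h2
        rw [netC_cons, h2]
        ring

lemma zero_path (hd : ∀ c a, |d c a| ≤ 1) (harr : ∀ c a, d c a ≠ 0 → step c a = c₀)
    {w : List S} {c c' : C}
    (h : arun (qstep step d m) (qroot m c₀) (live (c, (0 : ZMod m))) w = live (c', (0 : ZMod m))) :
    netC step d c w = 0 := by
  induction w generalizing c with
  | nil => simp
  | cons a w ih =>
    rw [arun_cons] at h
    have hq : qstep step d m (c, (0 : ZMod m)) a = (step c a, 0 + (d c a : ZMod m)) := rfl
    by_cases hd0 : d c a = 0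
    · by_cases hr : qstep step d m (c, (0 : ZMod m)) a = qroot m c₀
      · rw [astep_root _ _ _ _ hr] at h
        exact absurd h (arun_fin_ne_live _ _ _ _)
      · rw [astep_live _ _ _ _ hr, hq, hd0] at h
        simp only [Int.cast_zero, add_zero] at h
        rw [netC_cons, hd0, ih h]
        simp
    · exfalso
      have hs := harr c a hd0
      by_cases hr : qstep step d m (c, (0 : ZMod m)) a = qroot m c₀
      · rw [astep_root _ _ _ _ hr] at h
        exact absurd h (arun_fin_ne_live _ _ _ _)
      · rw [astep_live _ _ _ _ hr, hq, zero_add] at h
        have hz : (d c a : ZMod m) ≠ 0 := by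
          intro hz
          apply hr
          rw [hq, hs, hz]
          simp
        exact (val_path' hd harr h hz).1 rfl

/-- The abstract criterion for root-aperiodicity of a walk over a control automaton. -/
theorem abstract_rootAp (hd : ∀ c a, |d c a| ≤ 1) (harr : ∀ c a, d c a ≠ 0 → step c a = c₀)
    (H : ∀ (u : List S) (c : C) (k : ℕ), 1 ≤ k → run step c (List.replicate k u).flatten = c →
      netC step d c (List.replicate k u).flatten = 0 → run step c u = c) :
    RootAp (qstep step d m) (qroot m c₀) := by
  intro u q k hk hq
  obtain ⟨c, n⟩ := q
  set δ := qstep step d m with hδ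
  set r := qroot m c₀ with hr
  obtain ⟨q₁, hq₁⟩ : ∃ q₁, arun δ r (live (c, n)) u = live q₁ := by
    by_contra hcon
    push Not at hcon
    obtain ⟨j, rfl⟩ : ∃ j, k = j + 1 := ⟨k - 1, by omega⟩
    rw [Function.iterate_succ_apply] at hq
    exact nonlive_iterate' δ r u (s := arun δ r (live (c, n)) u) hcon j (c, n) hq
  have hrun : run δ (c, n) u = q₁ := arun_live_eq δ r hq₁
  rw [hδ, run_qstep] at hrun
  have hv : arun δ r (live (c, n)) (List.replicate k u).flatten = live (c, n) := by
    rw [arun_replicate']
    exact hq
  have hrv : run step c (List.replicate k u).flatten = c := by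
    have h1 := arun_live_eq δ r hv
    rw [hδ, run_qstep] at h1
    exact (Prod.mk.inj h1).1
  by_cases hroot : (c, n) = r
  · have hw := arun_eq_root δ r (s := live (c, n)) (w := (List.replicate k u).flatten)
      (by rw [hv, hroot])
    have hu : u = [] := by
      obtain ⟨j, rfl⟩ : ∃ j, k = j + 1 := ⟨k - 1, by omega⟩
      rw [List.replicate_succ, List.flatten_cons] at hw
      exact (List.append_eq_nil_iff.1 hw).1
    subst hu
    rfl
  · have hnet : netC step d c (List.replicate k u).flatten = 0 := by
      by_cases hn : n = 0
      · subst hn
        exact zero_path hd harr hv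
      · have := (val_path' hd harr hv hn).2
        omega
    have hfix := H u c k hk hrv hnet
    rw [netC_replicate step d c u hfix k] at hnet
    have hk0 : (k : ℤ) ≠ 0 := by exact_mod_cast (by omega : k ≠ 0)
    have hnet1 : netC step d c u = 0 := by
      rcases mul_eq_zero.1 hnet with h | h
      · exact absurd h hk0
      · exact h
    rw [hfix, hnet1] at hrun
    simp only [Int.cast_zero, add_zero] at hrun
    rw [hq₁, ← hrun]

end Abs

end Vale.Agent.Lib.P329
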