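import Vale.Agent.Lib.P329.Basic

/-! Schutzenberger: fibres of morphisms onto finite aperiodic monoids are star-free. -/

namespace Vale.Agent.Lib.P329

section LocalDivisor

variable {M : Type} [Monoid M]

/-- Carrier of the local divisor of `M` at `c`. -/
def LD (c : M) : Type := {x : M // (∃ a, x = c * a) ∧ (∃ b, x = b * c)}

namespace LD

variable {c : M}

/-- Auxiliary left factor. -/
noncomputable def lf (x : LD c) : M := Classical.choose x.2.2

lemma lf_spec (x : LD c) : x.1 = lf x * c := Classical.choose_spec x.2.2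

/-- The underlying element of the product. -/
lemma mul_mem (x y : LD c) :
    (∃ a, lf x * y.1 = c * a) ∧ (∃ b, lf x * y.1 = b * c) := by
  obtain ⟨a, ha⟩ := y.2.1
  obtain ⟨b, hb⟩ := y.2.2
  obtain ⟨a', ha'⟩ := x.2.1
  refine ⟨⟨a' * a, ?_⟩, ⟨lf x * b, ?_⟩⟩
  · rw [ha, ← mul_assoc, ← lf_spec, ha', mul_assoc]
  · rw [hb, mul_assoc]

/-- Independence of the left factor chosen. -/
lemma lf_mul_eq (x y : LD c) (b : M) (hb : x.1 = b * c) : lf x * y.1 = b * y.1 := by
  obtain ⟨a, ha⟩ := y.2.1
  rw [ha, ← mul_assoc, ← mul_assoc, ← lf_spec, hb]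

noncomputable instance : Mul (LD c) := ⟨fun x y => ⟨lf x * y.1, mul_mem x y⟩⟩

lemma val_mul (x y : LD c) (b : M) (hb : x.1 = b * c) : (x * y).1 = b * y.1 :=
  lf_mul_eq x y b hb

noncomputable instance : One (LD c) := ⟨⟨c, ⟨1, by simp⟩, ⟨1, by simp⟩⟩⟩

lemma val_one : (1 : LD c).1 = c := rfl

noncomputable instance : Monoid (LD c) where
  mul_assoc x y z := by
    apply Subtype.ext
    have h1 : (x * y).1 = lf x * (lf y * c) := by
      rw [val_mul x y (lf x) (lf_spec x), ← lf_spec y]
    have h2 : (x * y).1 = (lf x * lf y) * c := by rw [h1, mul_assoc]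
    rw [val_mul (x * y) z (lf x * lf y) h2, val_mul x (y * z) (lf x) (lf_spec x),
      val_mul y z (lf y) (lf_spec y), mul_assoc]
  one_mul x := by
    apply Subtype.ext
    rw [val_mul 1 x 1 (by simp [val_one])]
    simp
  mul_one x := by
    apply Subtype.ext
    rw [val_mul x 1 (lf x) (lf_spec x), val_one, ← lf_spec x]

lemma val_pow_succ (x : LD c) (b : M) (hb : x.1 = b * c) (n : ℕ) :
    (x ^ (n + 1)).1 = b ^ (n + 1) * c := by
  induction n with
  | zero => simpa using hb
  | succ n ih =>
    rw [pow_succ x (n + 1), val_mul _ x (b ^ (n + 1)) ih, hb, pow_succ b (n + 1), mul_assoc]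

lemma aperiodic (hM : ∀ x : M, ∃ n : ℕ, x ^ n = x ^ (n + 1)) (x : LD c) :
    ∃ n : ℕ, x ^ n = x ^ (n + 1) := by
  obtain ⟨k, hk⟩ := hM (lf x)
  refine ⟨k + 1, ?_⟩
  apply Subtype.ext
  have h : lf x ^ (k + 1 + 1) = lf x ^ (k + 1) := by
    calc lf x ^ (k + 1 + 1) = lf x ^ (k + 1) * lf x := pow_succ _ _
      _ = lf x ^ k * lf x := by rw [← hk]
      _ = lf x ^ (k + 1) := (pow_succ _ _).symm
  rw [val_pow_succ x (lf x) (lf_spec x) k, val_pow_succ x (lf x) (lf_spec x) (k + 1), h]

lemma card_lt [Finite M] (hM : ∀ x : M, ∃ n : ℕ, x ^ n = x ^ (n + 1)) (hc : c ≠ 1) :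
    Nat.card (LD c) < Nat.card M := by
  have h1 : ¬ ((∃ a, (1 : M) = c * a) ∧ (∃ b, (1 : M) = b * c)) := by
    rintro ⟨⟨a, ha⟩, ⟨b, hb⟩⟩
    apply hc
    obtain ⟨k, hk⟩ := hM c
    have hu : IsUnit c := by
      refine ⟨⟨c, a, ha.symm, ?_⟩, rfl⟩
      have : b = a := by
        calc b = b * (c * a) := by rw [← ha, mul_one]
          _ = a := by rw [← mul_assoc, ← hb, one_mul]
      rw [← this]; exact hb.symm
    have h2 : c ^ k * 1 = c ^ k * c := by rw [mul_one, ← pow_succ]; exact hk
    exact ((hu.pow k).mul_left_cancel h2).symm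
  exact Finite.card_subtype_lt h1

instance [Finite M] : Finite (LD c) := by
  unfold LD; infer_instance

end LD

end LocalDivisor

section Parse

variable {S M : Type} [Monoid M]

/-- Unique factorization of a word into blocks over `A'` each closed by the letter `c`;
the list `v` records the values of the blocks. -/
def Parse (A' : Set S) (c : S) (φ : S → M) : List M → List S → Prop
  | [], w => w = []
  | n :: v, w => ∃ u y, w = u ++ c :: y ∧ (∀ a ∈ u, a ∈ A') ∧ (u.map φ).prod = n ∧
      Parse A' c φ v y

variable {A' : Set S} {c : S} {φ : S → M}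

lemma append_cons_inj {u u' y y' : List S} (hu : ∀ a ∈ u, a ≠ c) (hu' : ∀ a ∈ u', a ≠ c)
    (h : u ++ c :: y = u' ++ c :: y') : u = u' ∧ y = y' := by
  induction u generalizing u' with
  | nil =>
    cases u' with
    | nil => simpa using h
    | cons b u' =>
      simp only [List.nil_append, List.cons_append, List.cons.injEq] at h
      exact absurd h.1.symm (hu' b (by simp))
  | cons a u ih =>
    cases u' with
    | nil =>
      simp only [List.nil_append, List.cons_append, List.cons.injEq] at h
      exact absurd h.1 (hu a (by simp))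
    | cons b u' =>
      simp only [List.cons_append, List.cons.injEq] at h
      obtain ⟨rfl, h2⟩ := h
      obtain ⟨h3, h4⟩ := ih (fun x hx => hu x (by simp [hx]))
        (fun x hx => hu' x (by simp [hx])) h2
      exact ⟨by rw [h3], h4⟩

lemma parse_unique (hc : c ∉ A') {v v' : List M} {w : List S}
    (h : Parse A' c φ v w) (h' : Parse A' c φ v' w) : v = v' := by
  induction v generalizing v' w with
  | nil =>
    cases v' with
    | nil => rfl
    | cons n' v' =>
      obtain ⟨u, y, h1, -⟩ := h'
      have : w = [] := h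
      simp [this] at h1
  | cons n v ih =>
    cases v' with
    | nil =>
      obtain ⟨u, y, h1, -⟩ := h
      have : w = [] := h'
      simp [this] at h1
    | cons n' v' =>
      obtain ⟨u, y, h1, h2, h3, h4⟩ := h
      obtain ⟨u', y', h1', h2', h3', h4'⟩ := h'
      have hne : ∀ {s : List S}, (∀ a ∈ s, a ∈ A') → ∀ a ∈ s, a ≠ c := by
        intro s hs a ha hac
        exact hc (hac ▸ hs a ha)
      obtain ⟨rfl, rfl⟩ := append_cons_inj (hne h2) (hne h2') (h1.symm.trans h1')
      have : n = n' := by rw [← h3, ← h3']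
      rw [this, ih h4 h4']

lemma parse_append {v₁ v₂ : List M} {w : List S} :
    Parse A' c φ (v₁ ++ v₂) w ↔
      ∃ w₁ w₂, w = w₁ ++ w₂ ∧ Parse A' c φ v₁ w₁ ∧ Parse A' c φ v₂ w₂ := by
  induction v₁ generalizing w with
  | nil =>
    constructor
    · intro h
      exact ⟨[], w, rfl, rfl, h⟩
    · rintro ⟨w₁, w₂, rfl, h1, h2⟩
      have : w₁ = [] := h1
      subst this
      simpa using h2
  | cons n v ih =>
    constructor
    · rintro ⟨u, y, rfl, h2, h3, h4⟩
      obtain ⟨w₁, w₂, rfl, h5, h6⟩ := ih.1 h4
      exact ⟨u ++ c :: w₁, w₂, by simp, ⟨u, w₁, rfl, h2, h3, h5⟩, h6⟩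
    · rintro ⟨w₁, w₂, rfl, ⟨u, y, rfl, h2, h3, h4⟩, h6⟩
      exact ⟨u, y ++ w₂, by simp, h2, h3, ih.2 ⟨y, w₂, rfl, h4, h6⟩⟩

lemma parse_mem {v : List M} {w : List S} (h : Parse A' c φ v w) :
    ∀ a ∈ w, a ∈ A' ∨ a = c := by
  induction v generalizing w with
  | nil =>
    have : w = [] := h
    simp [this]
  | cons n v ih =>
    obtain ⟨u, y, rfl, h2, h3, h4⟩ := h
    intro a ha
    simp only [List.mem_append, List.mem_cons] at ha
    rcases ha with ha | rfl | ha
    · exact Or.inl (h2 a ha)
    · exact Or.inr rfl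
    · exact ih h4 a ha

lemma parse_decomp {w : List S} (hw : ∀ a ∈ w, a ∈ A' ∨ a = c) :
    ∃ v y z, Parse A' c φ v y ∧ w = y ++ z ∧ ∀ a ∈ z, a ∈ A' := by
  induction w with
  | nil => exact ⟨[], [], [], rfl, rfl, by simp⟩
  | cons a w ih =>
    obtain ⟨v, y, z, h1, rfl, h3⟩ := ih (fun b hb => hw b (by simp [hb]))
    rcases hw a (by simp) with ha | rfl
    · cases v with
      | nil =>
        have : y = [] := h1
        subst this
        refine ⟨[], [], a :: z, rfl, by simp, ?_⟩
        intro b hb
        simp only [List.mem_cons] at hb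
        rcases hb with rfl | hb
        · exact ha
        · exact h3 b hb
      | cons n v =>
        obtain ⟨u, y', rfl, h5, h6, h7⟩ := h1
        refine ⟨(((a :: u).map φ).prod) :: v, (a :: u) ++ c :: y', z, ?_, by simp, h3⟩
        refine ⟨a :: u, y', rfl, ?_, rfl, h7⟩
        intro b hb
        simp only [List.mem_cons] at hb
        rcases hb with rfl | hb
        · exact ha
        · exact h5 b hb
    · exact ⟨1 :: v, a :: y, z, ⟨[], y, rfl, by simp, by simp, h1⟩, by simp, h3⟩

lemma parse_shape {v : List M} {w : List S} (h : Parse A' c φ v w) :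
    w = [] ∨ ∃ p, w = p ++ [c] := by
  induction v generalizing w with
  | nil =>
    have : w = [] := h
    exact Or.inl this
  | cons n v ih =>
    obtain ⟨u, y, rfl, h2, h3, h4⟩ := h
    right
    rcases ih h4 with rfl | ⟨p, rfl⟩
    · exact ⟨u, rfl⟩
    · exact ⟨u ++ c :: p, by simp⟩

/-- The domain of the block parser. -/
lemma parse_dom (hc : c ∉ A') {w : List S} :
    (∃ v, Parse A' c φ v w) ↔ (∀ a ∈ w, a ∈ A' ∨ a = c) ∧ (w = [] ∨ ∃ p, w = p ++ [c]) := by
  constructor
  · rintro ⟨v, h⟩
    exact ⟨parse_mem h, parse_shape h⟩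
  · rintro ⟨h1, h2⟩
    obtain ⟨v, y, z, h3, rfl, h5⟩ := parse_decomp (φ := φ) h1
    rcases h2 with h2 | ⟨p, hp⟩
    · have hy : y = [] := by simpa using (List.append_eq_nil_iff.1 h2).1
      have hz : z = [] := by simpa using (List.append_eq_nil_iff.1 h2).2
      subst hy; subst hz
      exact ⟨v, h3⟩
    · have hz : z = [] := by
        by_contra hz
        obtain ⟨z', b, rfl⟩ := List.eq_nil_or_concat z |>.resolve_left hz
        have : y ++ (z' ++ [b]) = p ++ [c] := by simpa [List.concat_eq_append] using hp
        have h6 : (y ++ z') ++ [b] = p ++ [c] := by simpa using this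
        have h7 := (List.append_inj' h6 rfl).2
        simp only [List.cons.injEq, and_true] at h7
        have : b ∈ A' := h5 b (by simp)
        exact hc (h7 ▸ this)
      subst hz
      exact ⟨v, by simpa using h3⟩

end Parse

section Main

variable {S : Type}

/-- Words all of whose letters lie in a given set. -/
lemma words_in_HS [Finite S] (B : Set S) : HS 0 {w : List S | ∀ a ∈ w, a ∈ B} := by
  have h1 : HS 0 (⋃ a : {a // a ∉ B}, conc (conc Set.univ {[a.1]}) (Set.univ : Set (List S))) :=
    HS.iUnion (fun a => (HS.univ.conc (HS.letter a.1)).conc HS.univ)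
  have := h1.compl
  convert this using 1
  ext w
  simp only [Set.mem_ofPred_eq, Set.mem_compl_iff, Set.mem_iUnion, not_exists]
  constructor
  · rintro h ⟨a, ha⟩ ⟨u, ⟨p, -, q, hq, rfl⟩, r, -, rfl⟩
    have hq' : q = [a] := hq
    subst hq'
    exact ha (h a (by simp))
  · intro h a ha
    by_contra hB
    obtain ⟨s, t, rfl⟩ := List.append_of_mem ha
    exact h ⟨a, hB⟩ ⟨s ++ [a], ⟨s, trivial, [a], rfl, rfl⟩, t, trivial, by simp⟩

variable {M : Type} [Monoid M]

/-- The letter map into the local divisor. -/
def psi (C : M) (n : M) : LD C := ⟨C * n * C, ⟨n * C, by simp [mul_assoc]⟩, ⟨C * n, rfl⟩⟩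

lemma parse_val {A' : Set S} {c : S} {φ : S → M} {v : List M} {w : List S}
    (h : Parse A' c φ v w) :
    ((v.map (psi (φ c))).prod).1 = φ c * (w.map φ).prod := by
  induction v generalizing w with
  | nil =>
    have : w = [] := h
    subst this
    simp [LD.val_one]
  | cons n v ih =>
    obtain ⟨u, y, rfl, h2, h3, h4⟩ := h
    simp only [List.map_cons, List.prod_cons, List.map_append, List.prod_append]
    rw [LD.val_mul (psi (φ c) n) _ (φ c * n) rfl, ih h4, h3]
    simp [mul_assoc]

/-- Substitution of blocks into star-free expressions. -/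
lemma sub_HS0 {A' : Set S} {c : S} {φ : S → M} (hc : c ∉ A')
    (hs : ∀ n : M, HS 0 {w : List S | (∀ a ∈ w, a ∈ A') ∧ (w.map φ).prod = n})
    (hdom : HS 0 {w : List S | ∃ v, Parse A' c φ v w}) (E : GExpr M) (hE : sh E ≤ 0) :
    HS 0 {w : List S | ∃ v ∈ lang E, Parse A' c φ v w} := by
  induction E with
  | zero => simpa [lang] using HS.empty
  | one =>
    convert HS.eps (n := 0) (S := S) using 1
    ext w
    simp only [lang, Set.mem_singleton_iff, Set.mem_ofPred_eq, exists_eq_left]
    rfl
  | letter t =>
    convert (hs t).conc (HS.letter c) using 1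
    ext w
    constructor
    · rintro ⟨v, hv, h⟩
      have hv' : v = [t] := hv
      subst hv'
      obtain ⟨u, y, rfl, h2, h3, h4⟩ := h
      have : y = [] := h4
      subst this
      exact ⟨u, ⟨h2, h3⟩, [c], rfl, rfl⟩
    · rintro ⟨u, ⟨h2, h3⟩, q, hq, rfl⟩
      have : q = [c] := hq
      subst this
      exact ⟨[t], rfl, u, [], rfl, h2, h3, rfl⟩
  | add P Q ihP ihQ =>
    have hP : sh P ≤ 0 := le_trans (le_max_left _ _) hE
    have hQ : sh Q ≤ 0 := le_trans (le_max_right _ _) hE
    convert (ihP hP).union (ihQ hQ) using 1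
    ext w
    simp only [lang, Set.mem_union, Set.mem_ofPred_eq]
    constructor
    · rintro ⟨v, hv | hv, h⟩
      · exact Or.inl ⟨v, hv, h⟩
      · exact Or.inr ⟨v, hv, h⟩
    · rintro (⟨v, hv, h⟩ | ⟨v, hv, h⟩)
      · exact ⟨v, Or.inl hv, h⟩
      · exact ⟨v, Or.inr hv, h⟩
  | mul P Q ihP ihQ =>
    have hP : sh P ≤ 0 := le_trans (le_max_left _ _) hE
    have hQ : sh Q ≤ 0 := le_trans (le_max_right _ _) hE
    convert (ihP hP).conc (ihQ hQ) using 1
    ext w
    simp only [lang, Set.mem_ofPred_eq, conc]
    constructor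
    · rintro ⟨v, ⟨v₁, h₁, v₂, h₂, rfl⟩, h⟩
      obtain ⟨w₁, w₂, rfl, h3, h4⟩ := parse_append.1 h
      exact ⟨w₁, ⟨v₁, h₁, h3⟩, w₂, ⟨v₂, h₂, h4⟩, rfl⟩
    · rintro ⟨w₁, ⟨v₁, h₁, h3⟩, w₂, ⟨v₂, h₂, h4⟩, rfl⟩
      exact ⟨v₁ ++ v₂, ⟨v₁, h₁, v₂, h₂, rfl⟩, parse_append.2 ⟨w₁, w₂, rfl, h3, h4⟩⟩
  | compl P ih =>
    have hP : sh P ≤ 0 := hE
    convert hdom.diff (ih hP) using 1
    ext w
    simp only [lang, Set.mem_compl_iff, Set.mem_ofPred_eq, Set.mem_sdiff, not_exists, not_and]
    constructor
    · rintro ⟨v, hv, h⟩
      refine ⟨⟨v, h⟩, fun v' hv' h' => hv ?_⟩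
      rw [parse_unique hc h h']
      exact hv'
    · rintro ⟨⟨v, h⟩, h2⟩
      exact ⟨v, fun hv => h2 v hv h, h⟩
  | star P _ =>
    simp [sh] at hE

/-- The Schutzenberger direction: aperiodic monoids recognize only star-free languages. -/
theorem aperiodic_HS0 : ∀ (N : ℕ) (M : Type) [Monoid M] [Finite M], Nat.card M ≤ N →
    (∀ x : M, ∃ n : ℕ, x ^ n = x ^ (n + 1)) →
    ∀ (S : Type) [Finite S] (φ : S → M) (m : M), HS 0 {w : List S | (w.map φ).prod = m} := by
  intro N
  induction N with
  | zero =>
    intro M _ _ hN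
    have : 0 < Nat.card M := Nat.card_pos
    omega
  | succ N IH =>
    intro M _ _ hN hM S _ φ m
    classical
    cases nonempty_fintype S
    have inner : ∀ (A : Finset S) (m : M),
        HS 0 {w : List S | (∀ a ∈ w, a ∈ (A : Set S)) ∧ (w.map φ).prod = m} := by
      intro A
      induction A using Finset.strongInductionOn with
      | _ A IHA =>
      intro m
      by_cases hA : ∀ a ∈ A, φ a = 1
      · by_cases hm : m = 1
        · subst hm
          convert words_in_HS (S := S) (A : Set S) using 1
          ext w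
          simp only [Set.mem_ofPred_eq, and_iff_left_iff_imp]
          intro hw
          apply List.prod_eq_one
          intro x hx
          obtain ⟨a, ha, rfl⟩ := List.mem_map.1 hx
          exact hA a (by simpa using hw a ha)
        · convert HS.empty (n := 0) (S := S) using 1
          ext w
          simp only [Set.mem_ofPred_eq, Set.mem_empty_iff_false, iff_false, not_and]
          intro hw h
          apply hm
          rw [← h]
          apply List.prod_eq_one
          intro x hx
          obtain ⟨a, ha, rfl⟩ := List.mem_map.1 hx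
          exact hA a (by simpa using hw a ha)
      · push Not at hA
        obtain ⟨c, hcA, hc1⟩ := hA
        set A' : Set S := ((A.erase c : Finset S) : Set S) with hA'
        have hc : c ∉ A' := by simp [hA']
        have hs : ∀ n : M, HS 0 {w : List S | (∀ a ∈ w, a ∈ A') ∧ (w.map φ).prod = n} :=
          fun n => IHA (A.erase c) (Finset.erase_ssubset hcA) n
        have hdom : HS 0 {w : List S | ∃ v, Parse A' c φ v w} := by
          have h1 := (words_in_HS (S := S) (A' ∪ {c})).inter
            ((HS.eps (n := 0) (S := S)).union ((HS.univ (n := 0) (S := S)).conc (HS.letter c)))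
          convert h1 using 1
          ext w
          rw [Set.mem_ofPred_eq, parse_dom hc]
          constructor
          · rintro ⟨h1, h2⟩
            refine ⟨fun a ha => ?_, ?_⟩
            · rcases h1 a ha with h | h
              · exact Or.inl h
              · exact Or.inr h
            · rcases h2 with h | ⟨p, h⟩
              · exact Or.inl h
              · exact Or.inr ⟨p, trivial, [c], rfl, h⟩
          · rintro ⟨h1, h2⟩
            refine ⟨fun a ha => ?_, ?_⟩
            · rcases h1 a ha with h | h
              · exact Or.inl h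
              · exact Or.inr h
            · rcases h2 with h | ⟨p, -, q, hq, h⟩
              · exact Or.inl h
              · have : q = [c] := hq
                subst this
                exact Or.inr ⟨p, h⟩
        have hLD : ∀ x : LD (φ c), HS 0 {w : List S | ∃ v, (v.map (psi (φ c))).prod = x ∧
            Parse A' c φ v w} := by
          intro x
          have hcard : Nat.card (LD (φ c)) ≤ N := by
            have := LD.card_lt (c := φ c) hM hc1
            omega
          obtain ⟨E, hE, hL⟩ := IH (LD (φ c)) hcard (LD.aperiodic hM) M (psi (φ c)) x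
          have := sub_HS0 hc hs hdom E hE
          convert this using 1
          ext w
          simp only [Set.mem_ofPred_eq, hL]
        -- assemble
        let ι := {p : M × LD (φ c) × M // p.1 * p.2.1.1 * p.2.2 = m}
        have hfin : HS 0 (⋃ p : ι, conc {w : List S | (∀ a ∈ w, a ∈ A') ∧ (w.map φ).prod = p.1.1}
            (conc {[c]} (conc {w : List S | ∃ v, (v.map (psi (φ c))).prod = p.1.2.1 ∧
              Parse A' c φ v w} {w : List S | (∀ a ∈ w, a ∈ A') ∧ (w.map φ).prod = p.1.2.2}))) :=
          HS.iUnion (fun p => (hs _).conc ((HS.letter c).conc ((hLD _).conc (hs _))))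
        convert (hs m).union hfin using 1
        ext w
        simp only [Set.mem_ofPred_eq, Set.mem_union, Set.mem_iUnion]
        have hAc : ∀ a, a ∈ (A : Set S) ↔ a ∈ A' ∨ a = c := by
          intro a
          simp only [hA', Finset.coe_erase, Set.mem_sdiff, Finset.mem_coe, Set.mem_singleton_iff]
          constructor
          · intro h
            by_cases hac : a = c
            · exact Or.inr hac
            · exact Or.inl ⟨h, hac⟩
          · rintro (⟨h, -⟩ | rfl)
            · exact h
            · exact hcA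
        constructor
        · rintro ⟨hw, hp⟩
          obtain ⟨v, y, z, h3, rfl, h5⟩ := parse_decomp (φ := φ) (w := w)
            (fun a ha => (hAc a).1 (hw a ha))
          cases v with
          | nil =>
            have : y = [] := h3
            subst this
            left
            exact ⟨h5, by simpa using hp⟩
          | cons n v =>
            obtain ⟨u, y', rfl, h6, h7, h8⟩ := h3
            right
            have hval := parse_val h8
            refine ⟨⟨((u.map φ).prod, (v.map (psi (φ c))).prod, (z.map φ).prod), ?_⟩,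
              u, ⟨h6, rfl⟩, c :: (y' ++ z), ⟨[c], rfl, y' ++ z, ⟨y', ⟨v, rfl, h8⟩, z, ⟨h5, rfl⟩,
                rfl⟩, rfl⟩, by simp⟩
            simp only [hval]
            rw [← hp]
            simp [mul_assoc]
        · rintro (⟨h1, h2⟩ | ⟨p, u, ⟨h1, h2⟩, q, ⟨q', hq', r, ⟨y, ⟨v, hv, h3⟩, z, ⟨h4, h5⟩, rfl⟩,
              rfl⟩, rfl⟩)
          · exact ⟨fun a ha => (hAc a).2 (Or.inl (h1 a ha)), h2⟩
          · have : q' = [c] := hq'
            subst this
            have hval := parse_val h3
            constructor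
            · intro a ha
              apply (hAc a).2
              simp only [List.mem_append, List.mem_cons, List.not_mem_nil, or_false] at ha
              rcases ha with ha | rfl | ha | ha
              · exact Or.inl (h1 a ha)
              · exact Or.inr rfl
              · exact parse_mem h3 a ha
              · exact Or.inl (h4 a ha)
            · rw [← p.2]
              rw [hv] at hval
              simp only [List.map_append, List.prod_append, List.map_cons, List.prod_cons,
                List.map_nil, List.prod_nil, mul_one]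
              rw [h2, h5, hval]
              simp [mul_assoc]
    have := inner Finset.univ m
    convert this using 1
    ext w
    simp

end Main

end Vale.Agent.Lib.P329
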