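import Vale.Agent.Lib.P329.Aperiodic

/-! Deterministic automata whose first-return automaton at a root is aperiodic. -/

namespace Vale.Agent.Lib.P329

section Iter

/-- If every periodic point of `f` on a finite set is fixed, the iterates of `f` stabilize. -/
lemma iterate_stabilize {X : Type} [Finite X] (f : X → X)
    (hf : ∀ (s : X) (k : ℕ), 1 ≤ k → f^[k] s = s → f s = s) : ∃ n : ℕ, f^[n] = f^[n + 1] := by
  classical
  cases nonempty_fintype X
  have h1 : ∀ s : X, ∃ i : ℕ, f^[i + 1] s = f^[i] s := by
    intro s
    obtain ⟨i, j, hij, h⟩ := Finite.exists_ne_map_eq_of_infinite (fun n : ℕ => f^[n] s)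
    wlog hlt : i < j generalizing i j
    · exact this j i hij.symm h.symm (by omega)
    refine ⟨i, ?_⟩
    have h2 : f^[j - i] (f^[i] s) = f^[i] s := by
      rw [← Function.iterate_add_apply]
      have : j - i + i = j := by omega
      rw [this]
      exact h.symm
    have h3 := hf _ (j - i) (by omega) h2
    rw [Function.iterate_succ_apply']
    exact h3
  choose i hi using h1
  refine ⟨Finset.univ.sup i, ?_⟩
  funext s
  have hle : i s ≤ Finset.univ.sup i := Finset.le_sup (Finset.mem_univ s)
  obtain ⟨d, hd⟩ := Nat.exists_eq_add_of_le hle
  rw [hd]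
  have : d + (i s + 1) = d + i s + 1 := by omega
  rw [show i s + d + 1 = d + (i s + 1) by omega, show i s + d = d + i s by omega,
    Function.iterate_add_apply, Function.iterate_add_apply, hi s]

end Iter

section Aut

variable {Q S : Type} [DecidableEq Q]

set_option linter.unusedSectionVars false

/-- States of the first-return automaton: `some (some q)` is a live state, `some none` means
the root has just been reached, and `none` is the dead state. -/
abbrev St (Q : Type) := Option (Option Q)

/-- A live state. -/
abbrev live (q : Q) : St Q := some (some q)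

/-- The reached-root state. -/
abbrev fin_ : St Q := some none

/-- One step of the first-return automaton. -/
def astep (δ : Q → S → Q) (r : Q) : St Q → S → St Q
  | some (some q), a => if δ q a = r then some none else some (some (δ q a))
  | _, _ => none

/-- Run of the first-return automaton. -/
def arun (δ : Q → S → Q) (r : Q) (s : St Q) (w : List S) : St Q := w.foldl (astep δ r) s

/-- Run of the automaton. -/
def run (δ : Q → S → Q) (q : Q) (w : List S) : Q := w.foldl δ q

variable (δ : Q → S → Q) (r : Q)

@[simp] lemma arun_nil (s : St Q) : arun δ r s [] = s := rfl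
@[simp] lemma arun_cons (s : St Q) (a : S) (w : List S) :
    arun δ r s (a :: w) = arun δ r (astep δ r s a) w := rfl
lemma arun_append (s : St Q) (u v : List S) :
    arun δ r s (u ++ v) = arun δ r (arun δ r s u) v := by simp [arun, List.foldl_append]
@[simp] lemma run_nil (q : Q) : run δ q ([] : List S) = q := rfl
@[simp] lemma run_cons (q : Q) (a : S) (w : List S) : run δ q (a :: w) = run δ (δ q a) w := rfl
lemma run_append (q : Q) (u v : List S) : run δ q (u ++ v) = run δ (run δ q u) v := by
  simp [run, List.foldl_append]

lemma arun_none (w : List S) : arun δ r none w = none := by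
  induction w with
  | nil => rfl
  | cons a w ih => simpa [astep] using ih

lemma arun_fin_cons (a : S) (w : List S) : arun δ r fin_ (a :: w) = none := by
  simpa [astep] using arun_none δ r w

lemma arun_fin_ne_live (w : List S) (q : Q) : arun δ r fin_ w ≠ live q := by
  cases w with
  | nil => simp
  | cons a w => rw [arun_fin_cons]; simp

lemma astep_live (q : Q) (a : S) (h : δ q a ≠ r) : astep δ r (live q) a = live (δ q a) := by
  simp [astep, h]

lemma astep_root (q : Q) (a : S) (h : δ q a = r) : astep δ r (live q) a = fin_ := by
  simp [astep, h]

lemma arun_live_eq {q q' : Q} {w : List S} (h : arun δ r (live q) w = live q') :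
    run δ q w = q' := by
  induction w generalizing q with
  | nil => simpa using h
  | cons a w ih =>
    by_cases hr : δ q a = r
    · rw [arun_cons, astep_root δ r q a hr] at h
      exact absurd h (arun_fin_ne_live δ r w q')
    · rw [arun_cons, astep_live δ r q a hr] at h
      exact ih h

lemma arun_fin_run {q : Q} {w : List S} (h : arun δ r (live q) w = fin_) : run δ q w = r := by
  induction w generalizing q with
  | nil => simp at h
  | cons a w ih =>
    by_cases hr : δ q a = r
    · rw [arun_cons, astep_root δ r q a hr] at h
      cases w with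
      | nil => simpa using hr
      | cons b w => rw [arun_fin_cons] at h; simp at h
    · rw [arun_cons, astep_live δ r q a hr] at h
      exact ih h

lemma astep_ne_root (s : St Q) (a : S) : astep δ r s a ≠ live r := by
  rcases s with _ | _ | q
  · simp [astep]
  · simp [astep]
  · by_cases hr : δ q a = r
    · rw [astep_root δ r q a hr]; simp
    · rw [astep_live δ r q a hr]
      simpa using hr

lemma arun_eq_root {s : St Q} {w : List S} (h : arun δ r s w = live r) : w = [] := by
  induction w generalizing s with
  | nil => rfl
  | cons a w ih =>
    have h1 := ih (s := astep δ r s a) h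
    subst h1
    exact absurd h (astep_ne_root δ r s a)

lemma arun_trichotomy (q : Q) (w : List S) :
    arun δ r (live q) w = live (run δ q w) ∨
      ∃ u v, w = u ++ v ∧ u ≠ [] ∧ arun δ r (live q) u = fin_ := by
  induction w generalizing q with
  | nil => exact Or.inl rfl
  | cons a w ih =>
    by_cases hr : δ q a = r
    · refine Or.inr ⟨[a], w, rfl, by simp, ?_⟩
      simp [astep_root δ r q a hr]
    · rcases ih (δ q a) with h | ⟨u, v, rfl, hu, h⟩
      · left
        rw [arun_cons, astep_live δ r q a hr, h]
        rfl
      · right
        refine ⟨a :: u, v, rfl, by simp, ?_⟩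
        rw [arun_cons, astep_live δ r q a hr, h]

/-- The language `X^* Y`-part of the decomposition. -/
lemma star_part {q : Q} (n : ℕ) (v : List S) (hn : v.length ≤ n) (hv : run δ r v = q) :
    v ∈ conc (kstar {w : List S | arun δ r (live r) w = fin_})
      {w : List S | arun δ r (live r) w = live q} := by
  induction n generalizing v with
  | zero =>
    have : v = [] := List.length_eq_zero_iff.1 (by omega)
    subst this
    have : q = r := by simpa using hv.symm
    subst this
    exact ⟨[], ⟨[], by simp, rfl⟩, [], rfl, rfl⟩
  | succ n ih =>
    rcases arun_trichotomy δ r r v with h | ⟨u, v', rfl, hu, h⟩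
    · refine ⟨[], ⟨[], by simp, rfl⟩, v, ?_, rfl⟩
      rw [Set.mem_ofPred_eq, h, hv]
    · have hr : run δ r u = r := arun_fin_run δ r h
      have hv' : run δ r v' = q := by rwa [run_append, hr] at hv
      have hlen : v'.length ≤ n := by
        have : 0 < u.length := List.length_pos_iff.2 hu
        simp only [List.length_append] at hn
        omega
      obtain ⟨f, ⟨l, hl, rfl⟩, z, hz, rfl⟩ := ih v' hlen hv'
      refine ⟨u ++ l.flatten, ⟨u :: l, ?_, by simp⟩, z, hz, by simp⟩
      intro x hx
      simp only [List.mem_cons] at hx
      rcases hx with rfl | hx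
      · exact h
      · exact hl x hx

lemma run_flatten_root (l : List (List S))
    (hl : ∀ u ∈ l, u ∈ {w : List S | arun δ r (live r) w = fin_}) : run δ r l.flatten = r := by
  induction l with
  | nil => rfl
  | cons u l ih =>
    rw [List.flatten_cons, run_append, arun_fin_run δ r (hl u (by simp))]
    exact ih (fun x hx => hl x (by simp [hx]))

/-- The decomposition of the path languages. -/
lemma run_iff (p q : Q) (w : List S) :
    run δ p w = q ↔ w ∈ ({w : List S | arun δ r (live p) w = live q} ∪
      conc {w : List S | arun δ r (live p) w = fin_}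
        (conc (kstar {w : List S | arun δ r (live r) w = fin_})
          {w : List S | arun δ r (live r) w = live q})) := by
  constructor
  · intro h
    rcases arun_trichotomy δ r p w with h1 | ⟨u, v, rfl, hu, h1⟩
    · left
      rw [Set.mem_ofPred_eq, h1, h]
    · right
      refine ⟨u, h1, v, ?_, rfl⟩
      rw [run_append, arun_fin_run δ r h1] at h
      exact star_part δ r v.length v le_rfl h
  · rintro (h | ⟨u, hu, _, ⟨f, ⟨l, hl, rfl⟩, z, hz, rfl⟩, rfl⟩)
    · exact arun_live_eq δ r h
    · rw [run_append, arun_fin_run δ r hu, run_append, run_flatten_root δ r l hl]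
      exact arun_live_eq δ r hz

/-- Reduction of membership in the path languages to star-freeness of the first-return ones. -/
lemma HS1_of_arun (h : ∀ (p : Q) (t : St Q), HS 0 {w : List S | arun δ r (live p) w = t})
    (p q : Q) : HS 1 {w : List S | run δ p w = q} := by
  have h1 : HS 1 ({w : List S | arun δ r (live p) w = live q} ∪
      conc {w : List S | arun δ r (live p) w = fin_}
        (conc (kstar {w : List S | arun δ r (live r) w = fin_})
          {w : List S | arun δ r (live r) w = live q})) :=
    ((h p _).mono (by omega)).union (((h p _).mono (by omega)).conc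
      ((h r _).star.conc ((h r _).mono (by omega))))
  convert h1 using 1
  ext w
  exact run_iff δ r p q w

end Aut

section Monoid

variable {Q S : Type} [DecidableEq Q] [Finite Q] [Finite S]

set_option linter.unusedSectionVars false

variable (δ : Q → S → Q) (r : Q)

/-- The letter map into the monoid of transformations of the first-return automaton,
in reading order. -/
def letterMap (a : S) : (Function.End (St Q))ᵐᵒᵖ := MulOpposite.op (fun s => astep δ r s a)

lemma prod_letterMap (w : List S) (s : St Q) :
    ((w.map (letterMap δ r)).prod).unop s = arun δ r s w := by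
  induction w generalizing s with
  | nil => rfl
  | cons a w ih =>
    simp only [List.map_cons, List.prod_cons, MulOpposite.unop_mul]
    exact ih (astep δ r s a)

/-- The submonoid of word transformations. -/
def wordMonoid : Submonoid (Function.End (St Q))ᵐᵒᵖ where
  carrier := {f | ∃ w : List S, (w.map (letterMap δ r)).prod = f}
  one_mem' := ⟨[], rfl⟩
  mul_mem' := by
    rintro _ _ ⟨u, rfl⟩ ⟨v, rfl⟩
    exact ⟨u ++ v, by simp⟩

/-- The root-aperiodicity property. -/
def RootAp : Prop :=
  ∀ (u : List S) (q : Q) (k : ℕ), 1 ≤ k → (fun s => arun δ r s u)^[k] (live q) = live q →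
    arun δ r (live q) u = live q

lemma pow_unop (f : (Function.End (St Q))ᵐᵒᵖ) (n : ℕ) (s : St Q) :
    (f ^ n).unop s = (f.unop)^[n] s := by
  induction n generalizing s with
  | zero => rfl
  | succ n ih =>
    rw [pow_succ', MulOpposite.unop_mul]
    change (f ^ n).unop (f.unop s) = _
    rw [ih]
    rfl

lemma wordMonoid_aperiodic (h : RootAp δ r) (x : wordMonoid δ r) :
    ∃ n : ℕ, x ^ n = x ^ (n + 1) := by
  obtain ⟨f, w, rfl⟩ := x
  have hf : ∀ s, ((w.map (letterMap δ r)).prod).unop s = arun δ r s w := prod_letterMap δ r w
  have key : ∀ (s : St Q) (k : ℕ), 1 ≤ k →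
      (fun s => arun δ r s w)^[k] s = s → arun δ r s w = s := by
    intro s k hk hs
    rcases s with _ | _ | q
    · exact arun_none δ r w
    · cases w with
      | nil => rfl
      | cons a w =>
        exfalso
        obtain ⟨j, rfl⟩ : ∃ j, k = j + 1 := ⟨k - 1, by omega⟩
        rw [Function.iterate_succ_apply] at hs
        have h1 : arun δ r (some none) (a :: w) = none := arun_fin_cons δ r a w
        rw [h1] at hs
        have h2 : ∀ j, (fun s => arun δ r s (a :: w))^[j] none = none := by
          intro j
          induction j with
          | zero => rfl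
          | succ j ih =>
            rw [Function.iterate_succ_apply']
            rw [ih]
            exact arun_none δ r _
        rw [h2] at hs
        simp at hs
    · exact h w q k hk hs
  obtain ⟨n, hn⟩ := iterate_stabilize _ key
  refine ⟨n, ?_⟩
  apply Subtype.ext
  simp only [SubmonoidClass.coe_pow]
  apply MulOpposite.unop_injective
  funext s
  have h1 : ∀ m : ℕ, (((w.map (letterMap δ r)).prod) ^ m).unop s
      = (fun s => arun δ r s w)^[m] s := by
    intro m
    rw [pow_unop]
    congr 1
    funext s
    exact hf s
  change ((((w.map (letterMap δ r)).prod) ^ n).unop s) = (((w.map (letterMap δ r)).prod) ^ (n + 1)).unop s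
  rw [h1, h1, hn]

instance finite_wordMonoid : Finite (wordMonoid (S := S) δ r) := by
  have : Finite (Function.End (St Q)) := inferInstanceAs (Finite (St Q → St Q))
  have : Finite (Function.End (St Q))ᵐᵒᵖ := Finite.of_equiv _ MulOpposite.opEquiv
  infer_instance

/-- The main theorem of this section. -/
theorem HS1_of_RootAp (h : RootAp δ r) (p q : Q) : HS 1 {w : List S | run δ p w = q} := by
  classical
  apply HS1_of_arun
  intro p t
  let L₀ : S → wordMonoid δ r := fun a => ⟨letterMap δ r a, [a], by simp⟩
  have hfib : ∀ m : wordMonoid δ r, HS 0 {w : List S | (w.map L₀).prod = m} := fun m =>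
    aperiodic_HS0 _ (wordMonoid δ r) le_rfl (wordMonoid_aperiodic δ r h) S L₀ m
  have hval : ∀ w : List S, (((w.map L₀).prod : wordMonoid δ r) : (Function.End (St Q))ᵐᵒᵖ)
      = (w.map (letterMap δ r)).prod := by
    intro w
    induction w with
    | nil => rfl
    | cons a w ih =>
      simp only [List.map_cons, List.prod_cons, Submonoid.coe_mul, ih]
      rfl
  have h1 : HS 0 (⋃ m : {m : wordMonoid δ r // (m.1).unop (live p) = t},
      {w : List S | (w.map L₀).prod = m.1}) := HS.iUnion (fun m => hfib m.1)
  convert h1 using 1
  ext w
  simp only [Set.mem_ofPred_eq, Set.mem_iUnion]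
  constructor
  · intro hw
    refine ⟨⟨(w.map L₀).prod, ?_⟩, rfl⟩
    rw [hval, prod_letterMap, hw]
  · rintro ⟨⟨m, hm⟩, hw⟩
    have hw' : (w.map L₀).prod = m := hw
    rw [← hm, ← hw', hval, prod_letterMap]

end Monoid

end Vale.Agent.Lib.P329
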