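import Vale.Agent.Lib.P329.Defs

/-! Closure lemmas for languages of bounded star height. -/

namespace Vale.Agent.Lib.P329

/-- `HS n L`: the language `L` is denoted by an expression of star height at most `n`. -/
def HS {S : Type} (n : ℕ) (L : Set (List S)) : Prop := ∃ E : GExpr S, sh E ≤ n ∧ lang E = L

variable {S : Type} {n : ℕ}

/-- Concatenation of languages. -/
def conc (L M : Set (List S)) : Set (List S) := {w | ∃ u ∈ L, ∃ v ∈ M, w = u ++ v}

lemma HS.empty : HS n (∅ : Set (List S)) := ⟨.zero, by simp [sh], rfl⟩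
lemma HS.eps : HS n ({[]} : Set (List S)) := ⟨.one, by simp [sh], rfl⟩
lemma HS.letter (a : S) : HS n ({[a]} : Set (List S)) := ⟨.letter a, by simp [sh], rfl⟩

lemma HS.union {L M : Set (List S)} (hL : HS n L) (hM : HS n M) : HS n (L ∪ M) := by
  obtain ⟨E, hE, rfl⟩ := hL
  obtain ⟨F, hF, rfl⟩ := hM
  exact ⟨.add E F, by simp [sh, hE, hF], rfl⟩

lemma HS.conc {L M : Set (List S)} (hL : HS n L) (hM : HS n M) : HS n (conc L M) := by
  obtain ⟨E, hE, rfl⟩ := hL
  obtain ⟨F, hF, rfl⟩ := hM
  exact ⟨.mul E F, by simp [sh, hE, hF], rfl⟩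

lemma HS.compl {L : Set (List S)} (hL : HS n L) : HS n Lᶜ := by
  obtain ⟨E, hE, rfl⟩ := hL
  exact ⟨.compl E, by simpa [sh] using hE, rfl⟩

lemma HS.univ : HS n (Set.univ : Set (List S)) := by
  have := (HS.empty (n := n) (S := S)).compl
  simpa using this

lemma HS.inter {L M : Set (List S)} (hL : HS n L) (hM : HS n M) : HS n (L ∩ M) := by
  have := (hL.compl.union hM.compl).compl
  simpa [Set.compl_union] using this

lemma HS.diff {L M : Set (List S)} (hL : HS n L) (hM : HS n M) : HS n (L \ M) := by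
  simpa [Set.sdiff_eq] using hL.inter hM.compl

lemma HS.mono {m : ℕ} (h : m ≤ n) {L : Set (List S)} (hL : HS m L) : HS n L := by
  obtain ⟨E, hE, rfl⟩ := hL
  exact ⟨E, hE.trans h, rfl⟩

/-- Kleene star of a language. -/
def kstar (L : Set (List S)) : Set (List S) :=
  {w | ∃ l : List (List S), (∀ u ∈ l, u ∈ L) ∧ w = l.flatten}

lemma HS.star {L : Set (List S)} (hL : HS n L) : HS (n + 1) (kstar L) := by
  obtain ⟨E, hE, rfl⟩ := hL
  exact ⟨.star E, by simpa [sh] using hE, rfl⟩

/-- Finite unions. -/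
lemma HS.iUnion {ι : Type*} [Finite ι] {L : ι → Set (List S)} (h : ∀ i, HS n (L i)) :
    HS n (⋃ i, L i) := by
  classical
  cases nonempty_fintype ι
  have key : ∀ s : Finset ι, HS n (⋃ i ∈ s, L i) := by
    intro s
    induction s using Finset.induction_on with
    | empty => simpa using HS.empty
    | insert a s _ ih =>
      rw [Finset.set_biUnion_insert]
      exact (h a).union ih
  simpa using key Finset.univ

/-- Finite intersections. -/
lemma HS.iInter {ι : Type*} [Finite ι] {L : ι → Set (List S)} (h : ∀ i, HS n (L i)) :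
    HS n (⋂ i, L i) := by
  have := (HS.iUnion (fun i => (h i).compl)).compl
  simpa [Set.compl_iUnion] using this

end Vale.Agent.Lib.P329
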