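import Vale.Agent.Lib.P329.Walk

/-! Languages recognized by finite groups with an abelian subgroup of index at most two. -/

namespace Vale.Agent.Lib.P329

section Meas

variable {S : Type}

/-- A function on words all of whose fibres have star height at most one. -/
def Meas {β : Type} (g : List S → β) : Prop := ∀ b, HS 1 {w | g w = b}

lemma Meas.prod {β γ : Type} {g : List S → β} {h : List S → γ} (hg : Meas g) (hh : Meas h) :
    Meas (fun w => (g w, h w)) := by
  rintro ⟨b, c⟩
  convert (hg b).inter (hh c) using 1
  ext w
  simp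

lemma Meas.pi {ι β : Type} [Finite ι] {g : ι → List S → β} (hg : ∀ i, Meas (g i)) :
    Meas (fun w i => g i w) := by
  intro f
  convert HS.iInter (fun i => hg i (f i)) using 1
  ext w
  simp [funext_iff]

lemma Meas.of_factor {β γ : Type} [Finite β] {g : List S → β} {h : List S → γ} (hg : Meas g)
    (hf : ∀ w w', g w = g w' → h w = h w') : Meas h := by
  intro c
  have h1 : HS 1 (⋃ b : {b : β // ∃ w, g w = b ∧ h w = c}, {w | g w = b.1}) :=
    HS.iUnion (fun b => hg b.1)
  convert h1 using 1
  ext w
  simp only [Set.mem_ofPred_eq, Set.mem_iUnion]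
  constructor
  · intro hw
    exact ⟨⟨g w, w, rfl, hw⟩, rfl⟩
  · rintro ⟨⟨b, w', hb, hw'⟩, hw⟩
    have hw2 : g w = b := hw
    rw [← hw', hf w w' (hw2.trans hb.symm)]

lemma Meas.set {γ : Type} [Finite γ] {h : List S → γ} (hh : Meas h) (P : Set γ) :
    HS 1 {w | h w ∈ P} := by
  have h1 : HS 1 (⋃ c : P, {w | h w = c.1}) := HS.iUnion (fun c => hh c.1)
  convert h1 using 1
  ext w
  simp only [Set.mem_ofPred_eq, Set.mem_iUnion]
  constructor
  · intro hw
    exact ⟨⟨h w, hw⟩, rfl⟩
  · rintro ⟨⟨c, hc⟩, hw⟩
    have hw2 : h w = c := hw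
    rw [hw2]
    exact hc

end Meas

section Count

set_option linter.unusedSectionVars false

variable {S : Type} [DecidableEq S] (τ : S → Bool)

/-- The number of occurrences of `x` read at level `false`, starting from level `e`. -/
def cntF (x : S) : Bool → List S → ℕ
  | _, [] => 0
  | e, a :: w => (if a = x ∧ e = false then 1 else 0) + cntF x (xor e (τ a)) w

@[simp] lemma cntF_nil (x : S) (e : Bool) : cntF τ x e [] = 0 := by cases e <;> rfl
@[simp] lemma cntF_cons (x : S) (e : Bool) (a : S) (w : List S) :
    cntF τ x e (a :: w) = (if a = x ∧ e = false then 1 else 0) + cntF τ x (xor e (τ a)) w := rfl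

/-- Weight one on flip letters. -/
def D1 (a : S) : ℤ := if τ a then 1 else 0

/-- Weight plus or minus one on flip letters, according to whether the letter is `x`. -/
def D2 (x : S) (a : S) : ℤ := if τ a then (if a = x then 1 else -1) else 0

/-- Weight one on flip letters and on the letter `x`. -/
def D3 (x : S) (a : S) : ℤ := if τ a then 1 else (if a = x then 1 else 0)

lemma net_D1_add_D2 (x : S) (hx : τ x = true) (e : Bool) (w : List S) :
    net τ (D1 τ) e w + net τ (D2 τ x) e w = 2 * (cntF τ x e w : ℤ) := by
  induction w generalizing e with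
  | nil => simp
  | cons a w ih =>
    cases e
    · simp only [net_false_cons, cntF_cons, Bool.false_bne]
      have h0 := ih (τ a)
      by_cases hax : a = x
      · subst hax
        simp only [D1, D2, hx, if_true, and_self]
        rw [hx] at h0
        push_cast
        omega
      · cases h : τ a
        · rw [h] at h0
          simp [D1, D2, hax, h]
          linarith
        · rw [h] at h0
          simp [D1, D2, hax, h]
          linarith
    · simp only [net_true_cons, cntF_cons]
      have h0 := ih (!τ a)
      cases h : τ a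
      · rw [h] at h0
        simpa using h0
      · rw [h] at h0
        simpa using h0

lemma net_D3_sub_D1 (x : S) (hx : τ x = false) (e : Bool) (w : List S) :
    net τ (D3 τ x) e w - net τ (D1 τ) e w = (cntF τ x e w : ℤ) := by
  induction w generalizing e with
  | nil => simp
  | cons a w ih =>
    cases e
    · simp only [net_false_cons, cntF_cons, Bool.false_bne]
      have h0 := ih (τ a)
      by_cases hax : a = x
      · subst hax
        simp only [D1, D3, hx, Bool.false_eq_true, if_false, if_true, and_self]
        rw [hx] at h0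
        push_cast
        omega
      · cases h : τ a
        · rw [h] at h0
          simp [D1, D3, hax, h]
          linarith
        · rw [h] at h0
          simp [D1, D3, hax, h]
          linarith
    · simp only [net_true_cons, cntF_cons]
      have h0 := ih (!τ a)
      cases h : τ a
      · rw [h] at h0
        simpa using h0
      · rw [h] at h0
        simpa using h0

lemma hO_parity (D : S → ℤ) (hp : ∀ a, (τ a = true ∧ Odd (D a)) ∨ (τ a = false ∧ Even (D a)))
    (u : List S) : lev τ false u = true → (u.map D).sum ≠ 0 := by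
  have key : ∀ (e : Bool) (u : List S),
      lev τ e u = xor e (decide (Odd (u.map D).sum)) := by
    intro e u
    induction u generalizing e with
    | nil => simp
    | cons a u ih =>
      simp only [lev_cons, List.map_cons, List.sum_cons]
      rw [ih]
      rcases hp a with ⟨h1, h2⟩ | ⟨h1, h2⟩
      · rw [h1]
        have : Odd (D a + (u.map D).sum) ↔ ¬ Odd (u.map D).sum := by
          rw [Int.odd_add]
          simp only [h2, true_iff]
          exact Int.not_odd_iff_even.symm
        by_cases h3 : Odd (u.map D).sum <;> cases e <;> simp [this, h3]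
      · rw [h1]
        have : Odd (D a + (u.map D).sum) ↔ Odd (u.map D).sum := by
          rw [Int.odd_add]
          have h5 : ¬ Odd (D a) := Int.not_odd_iff_even.2 h2
          simp only [h5, false_iff]
          exact Int.not_even_iff_odd
        by_cases h3 : Odd (u.map D).sum <;> cases e <;> simp [this, h3]
  intro h1 h2
  rw [key, h2] at h1
  simp at h1

lemma hO_pos (D : S → ℤ) (h0 : ∀ a, 0 ≤ D a) (h1 : ∀ a, τ a = true → D a = 1)
    (u : List S) : lev τ false u = true → (u.map D).sum ≠ 0 := by
  have key : ∀ (e : Bool) (u : List S), (u.map D).sum = 0 → lev τ e u = e := by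
    intro e u hu
    induction u with
    | nil => rfl
    | cons a u ih =>
      simp only [List.map_cons, List.sum_cons] at hu
      have h2 : 0 ≤ (u.map D).sum := List.sum_nonneg (by
        intro x hx
        obtain ⟨b, -, rfl⟩ := List.mem_map.1 hx
        exact h0 b)
      have h3 := h0 a
      have h4 : (u.map D).sum = 0 := by omega
      have h5 : D a = 0 := by omega
      have h6 : τ a = false := by
        by_contra h7
        have := h1 a (by simpa using h7)
        omega
      rw [lev_cons, h6, Bool.xor_false]
      exact ih h4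
  intro h2 h3
  rw [key false u h3] at h2
  simp at h2

variable [Finite S]

lemma D1_abs (a : S) : |D1 τ a| ≤ 1 := by
  unfold D1; split <;> simp

lemma D2_abs (x a : S) : |D2 τ x a| ≤ 1 := by
  unfold D2; split
  · split <;> simp
  · simp

lemma D3_abs (x a : S) : |D3 τ x a| ≤ 1 := by
  unfold D3; split
  · simp
  · split <;> simp

lemma D1_hO : ∀ u : List S, lev τ false u = true → (u.map (D1 τ)).sum ≠ 0 :=
  hO_parity τ (D1 τ) (by
    intro a
    unfold D1
    cases τ a <;> simp)

lemma D2_hO (x : S) : ∀ u : List S, lev τ false u = true → (u.map (D2 τ x)).sum ≠ 0 :=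
  hO_parity τ (D2 τ x) (by
    intro a
    unfold D2
    cases τ a
    · simp
    · by_cases h : a = x
      · simp [h]
      · simp [h])

lemma D3_hO (x : S) : ∀ u : List S, lev τ false u = true → (u.map (D3 τ x)).sum ≠ 0 :=
  hO_pos τ (D3 τ x)
    (by
      intro a
      unfold D3
      split
      · simp
      · split <;> simp)
    (by
      intro a h
      simp [D3, h])

/-- The counts modulo `n` are measurable. -/
theorem cnt_meas (x : S) (e : Bool) (n : ℕ) [NeZero n] :
    Meas (fun w : List S => ((cntF τ x e w : ℕ) : ZMod n)) := by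
  by_cases hx : τ x = true
  · -- a flip letter: use the moduli `2 * n`
    have : NeZero (2 * n) := ⟨by have := NeZero.ne n; omega⟩
    have h1 : Meas (fun w : List S => ((net τ (D1 τ) e w : ℤ) : ZMod (2 * n))) :=
      fun b => walk_count τ (D1 τ) (2 * n) (D1_abs τ) (D1_hO τ) e b
    have h2 : Meas (fun w : List S => ((net τ (D2 τ x) e w : ℤ) : ZMod (2 * n))) :=
      fun b => walk_count τ (D2 τ x) (2 * n) (D2_abs τ x) (D2_hO τ x) e b
    refine (h1.prod h2).of_factor ?_
    intro w w' hw
    simp only [Prod.mk.injEq] at hw
    obtain ⟨h3, h4⟩ := hw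
    rw [ZMod.intCast_eq_intCast_iff_dvd_sub] at h3 h4
    have h5 := net_D1_add_D2 τ x hx e w
    have h6 := net_D1_add_D2 τ x hx e w'
    have h7 := dvd_add h3 h4
    rw [show net τ (D1 τ) e w' - net τ (D1 τ) e w + (net τ (D2 τ x) e w' - net τ (D2 τ x) e w)
      = 2 * ((cntF τ x e w' : ℤ) - (cntF τ x e w : ℤ)) by rw [mul_sub, ← h5, ← h6]; ring] at h7
    push_cast at h7
    have h8 : (n : ℤ) ∣ (cntF τ x e w' : ℤ) - (cntF τ x e w : ℤ) :=
      (mul_dvd_mul_iff_left (by norm_num : (2 : ℤ) ≠ 0)).1 h7
    have h9 := (ZMod.intCast_eq_intCast_iff_dvd_sub (cntF τ x e w : ℤ) (cntF τ x e w' : ℤ) n).2 h8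
    exact_mod_cast h9
  · -- a non-flip letter
    have hx' : τ x = false := by simpa using hx
    have h1 : Meas (fun w : List S => ((net τ (D1 τ) e w : ℤ) : ZMod n)) :=
      fun b => walk_count τ (D1 τ) n (D1_abs τ) (D1_hO τ) e b
    have h2 : Meas (fun w : List S => ((net τ (D3 τ x) e w : ℤ) : ZMod n)) :=
      fun b => walk_count τ (D3 τ x) n (D3_abs τ x) (D3_hO τ x) e b
    refine (h1.prod h2).of_factor ?_
    intro w w' hw
    simp only [Prod.mk.injEq] at hw
    obtain ⟨h3, h4⟩ := hw
    have h5 := net_D3_sub_D1 τ x hx' e w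
    have h6 := net_D3_sub_D1 τ x hx' e w'
    have h7 : ((cntF τ x e w : ℕ) : ZMod n) = ((cntF τ x e w : ℤ) : ZMod n) := by simp
    have h8 : ((cntF τ x e w' : ℕ) : ZMod n) = ((cntF τ x e w' : ℤ) : ZMod n) := by simp
    rw [h7, h8, ← h5, ← h6]
    push_cast
    rw [h3, h4]

end Count

section GroupTheorem

variable {S G : Type} [DecidableEq S] [Fintype S] [Group G]

/-- The formula for the value of a word. -/
lemma word_formula {B : Type} [CommGroup B] (ι : B →* G) (τ : S → Bool) (φ : S → G)
    (tt : Bool → G) (β : S → Bool → B)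
    (hβ : ∀ a E, ι (β a E) * tt (xor E (τ a)) = tt E * φ a) (w : List S) (E : Bool) :
    tt E * (w.map φ).prod =
      ι (∏ p : S × Bool, β p.1 p.2 ^ (cntF τ p.1 (xor E p.2) w)) * tt (lev τ E w) := by
  induction w generalizing E with
  | nil => simp
  | cons a w ih =>
    simp only [List.map_cons, List.prod_cons, lev_cons, cntF_cons]
    rw [← mul_assoc, ← hβ a E, mul_assoc, ih (xor E (τ a))]
    rw [← mul_assoc, ← map_mul]
    congr 2
    have h1 : ∀ p : S × Bool, β p.1 p.2 ^ ((if a = p.1 ∧ xor E p.2 = false then 1 else 0) +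
        cntF τ p.1 (xor (xor E p.2) (τ a)) w) =
        β p.1 p.2 ^ (if a = p.1 ∧ xor E p.2 = false then 1 else 0) *
          β p.1 p.2 ^ (cntF τ p.1 (xor (xor E (τ a)) p.2) w) := by
      intro p
      rw [pow_add]
      congr 3
      cases E <;> cases τ a <;> cases p.2 <;> rfl
    rw [Finset.prod_congr rfl (fun p _ => h1 p), Finset.prod_mul_distrib]
    congr 1
    rw [Finset.prod_eq_single (a, E)]
    · simp
    · rintro ⟨b, e⟩ - hne
      have : ¬ (a = b ∧ xor E e = false) := by
        rintro ⟨rfl, h⟩
        apply hne
        have : e = E := by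
          revert h
          cases E <;> cases e <;> simp
        rw [this]
      change β b e ^ (if a = b ∧ xor E e = false then 1 else 0) = 1
      rw [if_neg this, pow_zero]
    · simp

/-- The theorem for letters. -/
theorem group_fibre [Finite G] (A : Subgroup G) (hA : ∀ a ∈ A, ∀ b ∈ A, a * b = b * a)
    (hi : A.index ≤ 2) (φ : S → G) (P : Set G) :
    HS 1 {w : List S | (w.map φ).prod ∈ P} := by
  classical
  let _ : CommGroup A := { (inferInstance : Group A) with
    mul_comm := fun a b => Subtype.ext (hA a.1 a.2 b.1 b.2) }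
  have hi0 : A.index ≠ 0 := Subgroup.index_ne_zero_of_finite
  -- the coset representative
  obtain ⟨t, ht⟩ : ∃ t : G, ∀ g : G, A.index = 2 → (t ∉ A ∧ (g ∈ A ∨ g ∉ A)) := by
    by_cases h2 : A.index = 2
    · have : A ≠ ⊤ := by
        rintro rfl
        simp at h2
      obtain ⟨t, ht⟩ : ∃ t, t ∉ A := by
        by_contra h
        push Not at h
        exact this (Subgroup.eq_top_iff' A |>.2 h)
      exact ⟨t, fun g _ => ⟨ht, em _⟩⟩
    · exact ⟨1, fun g h => absurd h h2⟩
  let τ : S → Bool := fun a => decide (φ a ∉ A)
  let tt : Bool → G := fun E => if E then t else 1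
  have hmem : ∀ (a : S) (E : Bool), tt E * φ a * (tt (xor E (τ a)))⁻¹ ∈ A := by
    intro a E
    by_cases h2 : A.index = 2
    · have ht' := (ht 1 h2).1
      rw [Subgroup.mul_mem_iff_of_index_two h2, Subgroup.mul_mem_iff_of_index_two h2,
        inv_mem_iff]
      by_cases hφ : φ a ∈ A
      · have hτ : τ a = false := by simp [τ, hφ]
        rw [hτ]
        cases E <;> simp [tt, ht', hφ]
      · have hτ : τ a = true := by simp [τ, hφ]
        rw [hτ]
        cases E <;> simp [tt, ht', hφ]
    · have h1 : A.index = 1 := by omega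
      have : A = ⊤ := Subgroup.index_eq_one.1 h1
      rw [this]
      trivial
  let β : S → Bool → A := fun a E => ⟨_, hmem a E⟩
  have hβ : ∀ a E, A.subtype (β a E) * tt (xor E (τ a)) = tt E * φ a := by
    intro a E
    simp [β]
  set n := Nat.card A with hn
  have : NeZero n := ⟨by
    have : 0 < Nat.card A := Nat.card_pos
    omega⟩
  have hsig : Meas (fun w : List S => ((fun (p : S × Bool) => ((cntF τ p.1 p.2 w : ℕ) : ZMod n)),
      lev τ false w)) := by
    apply Meas.prod
    · apply Meas.pi
      intro p
      exact cnt_meas τ p.1 p.2 n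
    · intro b
      exact walk_lev τ (D1 τ) (D1_abs τ) (D1_hO τ) false b
  have hfin : Finite ((S × Bool → ZMod n) × Bool) := by infer_instance
  have hmain : Meas (fun w : List S => (w.map φ).prod) := by
    refine hsig.of_factor ?_
    intro w w' hw
    simp only [Prod.mk.injEq, funext_iff] at hw
    obtain ⟨h1, h2⟩ := hw
    have hf := word_formula A.subtype τ φ tt β hβ w false
    have hf' := word_formula A.subtype τ φ tt β hβ w' false
    simp only [tt, Bool.false_eq_true, if_false, one_mul] at hf hf'
    rw [hf, hf', h2]
    congr 2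
    apply Finset.prod_congr rfl
    intro p _
    have h3 := h1 p
    rw [ZMod.natCast_eq_natCast_iff'] at h3
    simp only [Bool.false_bne]
    rw [← pow_mod_natCard, h3, pow_mod_natCard]
  exact hmain.set P

end GroupTheorem

end Vale.Agent.Lib.P329
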