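import Vale.Agent.Lib.P329.AbsWalk
import Vale.Agent.Lib.P329.Proofs

/-! The block control automaton over a cyclic group of prime order. -/

namespace Vale.Agent.Lib.P329

set_option linter.unusedSectionVars false

section Block

variable {S : Type} [DecidableEq S] {p : ℕ} [Fact p.Prime]
  (τ : S → ZMod p) (ρ : ZMod p) (x : S)

/-- The sum of the level increments of a word. -/
def tsum (w : List S) : ZMod p := (w.map τ).sum

@[simp] lemma tsum_nil : tsum τ [] = 0 := rfl
@[simp] lemma tsum_cons (a : S) (w : List S) : tsum τ (a :: w) = τ a + tsum τ w := by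
  simp [tsum]
lemma tsum_append (u v : List S) : tsum τ (u ++ v) = tsum τ u + tsum τ v := by
  simp [tsum]

/-- The transition of the block control automaton. The control remembers the current level, and,
when away from the root level `ρ`, whether the letter leaving `ρ` was `x`. -/
def bstep (c : ZMod p × Bool) (a : S) : ZMod p × Bool :=
  if τ a = 0 then (if c.1 = ρ then (ρ, false) else c)
  else if c.1 = ρ then (ρ + τ a, decide (a = x))
  else if c.1 + τ a = ρ then (ρ, false)
  else (c.1 + τ a, c.2)

/-- The displacement of the block walk. -/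
def bdisp (α : Bool → Bool → ℤ) (β : S → ℤ) (c : ZMod p × Bool) (a : S) : ℤ :=
  if τ a = 0 then (if c.1 = ρ then β a else 0)
  else if c.1 = ρ then 0
  else if c.1 + τ a = ρ then α c.2 (decide (a = x))
  else 0

lemma bstep_fst (c : ZMod p × Bool) (a : S) : (bstep τ ρ x c a).1 = c.1 + τ a := by
  unfold bstep
  by_cases h1 : τ a = 0
  · rw [if_pos h1, h1]
    by_cases h2 : c.1 = ρ
    · simp [h2]
    · simp [h2]
  · rw [if_neg h1]
    by_cases h2 : c.1 = ρ
    · simp [h2]
    · rw [if_neg h2]
      by_cases h3 : c.1 + τ a = ρ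
      · simp [h3]
      · simp [h3]

lemma run_fst (c : ZMod p × Bool) (w : List S) :
    (run (bstep τ ρ x) c w).1 = c.1 + tsum τ w := by
  induction w generalizing c with
  | nil => simp
  | cons a w ih =>
    rw [run_cons, ih, bstep_fst, tsum_cons]
    ring

/-- The memory lemma: a word either forgets the bit or leaves it unchanged. -/
lemma memory (w : List S) (e : ZMod p) :
    (∃ c', ∀ b, run (bstep τ ρ x) (e, b) w = c') ∨
      (∀ b, run (bstep τ ρ x) (e, b) w = (e + tsum τ w, b)) := by
  induction w generalizing e with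
  | nil => right; simp
  | cons a w ih =>
    by_cases h1 : τ a = 0
    · by_cases h2 : e = ρ
      · left
        refine ⟨run (bstep τ ρ x) (ρ, false) w, fun b => ?_⟩
        rw [run_cons]
        congr 1
        simp [bstep, h1, h2]
      · have hs : ∀ b, bstep τ ρ x (e, b) a = (e, b) := by
          intro b
          simp [bstep, h1, h2]
        rcases ih e with ⟨c', h⟩ | h
        · left
          refine ⟨c', fun b => ?_⟩
          rw [run_cons, hs, h]
        · right
          intro b
          rw [run_cons, hs, h, tsum_cons, h1, zero_add]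
    · by_cases h2 : e = ρ
      · left
        refine ⟨run (bstep τ ρ x) (ρ + τ a, decide (a = x)) w, fun b => ?_⟩
        rw [run_cons]
        congr 1
        simp [bstep, h1, h2]
      · by_cases h3 : e + τ a = ρ
        · left
          refine ⟨run (bstep τ ρ x) (ρ, false) w, fun b => ?_⟩
          rw [run_cons]
          congr 1
          simp [bstep, h1, h2, h3]
        · have hs : ∀ b, bstep τ ρ x (e, b) a = (e + τ a, b) := by
            intro b
            simp [bstep, h1, h2, h3]
          rcases ih (e + τ a) with ⟨c', h⟩ | h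
          · left
            refine ⟨c', fun b => ?_⟩
            rw [run_cons, hs, h]
          · right
            intro b
            rw [run_cons, hs, h, tsum_cons, add_assoc]

lemma tsum_replicate (u : List S) (k : ℕ) :
    tsum τ (List.replicate k u).flatten = k • tsum τ u := by
  induction k with
  | zero => simp
  | succ k ih =>
    rw [List.replicate_succ, List.flatten_cons, tsum_append, ih, succ_nsmul]
    ring

variable (α : Bool → Bool → ℤ) (β : S → ℤ)

lemma net_nonneg (hα : ∀ b t, 0 ≤ α b t) (hβ : ∀ a, 0 ≤ β a) (c : ZMod p × Bool) (w : List S) :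
    0 ≤ netC (bstep τ ρ x) (bdisp τ ρ x α β) c w := by
  induction w generalizing c with
  | nil => simp
  | cons a w ih =>
    rw [netC_cons]
    have h1 := ih (bstep τ ρ x c a)
    have h2 : 0 ≤ bdisp τ ρ x α β c a := by
      unfold bdisp
      split
      · split
        · exact hβ a
        · exact le_rfl
      · split
        · exact le_rfl
        · split
          · exact hα _ _
          · exact le_rfl
    omega

/-- A block whose leaving bit `b` is such that `α b` never vanishes has a positive displacement. -/
lemma net_block (hα : ∀ b t, 0 ≤ α b t) (hβ : ∀ a, 0 ≤ β a) (b : Bool) (hb : ∀ t, α b t ≠ 0)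
    (w : List S) (e : ZMod p) (he : e ≠ ρ) (hw : e + tsum τ w = ρ) :
    1 ≤ netC (bstep τ ρ x) (bdisp τ ρ x α β) (e, b) w := by
  induction w generalizing e with
  | nil =>
    simp only [tsum_nil, add_zero] at hw
    exact absurd hw he
  | cons a w ih =>
    rw [netC_cons]
    by_cases h1 : τ a = 0
    · have hs : bstep τ ρ x (e, b) a = (e, b) := by simp [bstep, h1, he]
      have hd : bdisp τ ρ x α β (e, b) a = 0 := by simp [bdisp, h1, he]
      rw [hs, hd, zero_add]
      apply ih e he
      rw [tsum_cons, h1, zero_add] at hw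
      exact hw
    · by_cases h3 : e + τ a = ρ
      · have hd : bdisp τ ρ x α β (e, b) a = α b (decide (a = x)) := by
          simp [bdisp, h1, he, h3]
        have h4 := net_nonneg τ ρ x α β hα hβ (bstep τ ρ x (e, b) a) w
        have h5 := hα b (decide (a = x))
        have h6 := hb (decide (a = x))
        rw [hd]
        omega
      · have hs : bstep τ ρ x (e, b) a = (e + τ a, b) := by simp [bstep, h1, he, h3]
        have hd : bdisp τ ρ x α β (e, b) a = 0 := by simp [bdisp, h1, he, h3]
        rw [hs, hd, zero_add]
        apply ih (e + τ a) h3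
        rw [tsum_cons, ← add_assoc] at hw
        exact hw

lemma exists_level (a b T : ZMod p) (hT : T ≠ 0) : ∃ t : ℕ, a + t • T = b := by
  refine ⟨((b - a) / T).val, ?_⟩
  rw [nsmul_eq_mul, ZMod.natCast_zmod_val]
  field_simp
  ring

lemma word_decomp (u u₁ u₂ : List S) (y : S) (hu : u = u₁ ++ y :: u₂) (t : ℕ) :
    (List.replicate (t + 1) u).flatten = (List.replicate t u).flatten ++ u₁ ++ y :: u₂ := by
  have h : [u].flatten = u := by simp
  rw [List.replicate_succ', List.flatten_append, h, List.append_assoc, ← hu]

lemma rep_add (u : List S) (m n : ℕ) :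
    (List.replicate (m + n) u).flatten = (List.replicate m u).flatten ++ (List.replicate n u).flatten := by
  rw [List.replicate_add, List.flatten_append]

/-- A word with a nonzero level increment eventually has a positive displacement. -/
lemma net_pos (hα : ∀ b t, 0 ≤ α b t) (hβ : ∀ a, 0 ≤ β a)
    (b₀ : Bool) (hb₀ : ∀ b t, α b t = 0 → b = b₀ ∧ t = !b₀)
    (u : List S) (hu : tsum τ u ≠ 0) (c : ZMod p × Bool) :
    ∃ n : ℕ, 1 ≤ netC (bstep τ ρ x) (bdisp τ ρ x α β) c (List.replicate n u).flatten := by
  set step := bstep τ ρ x with hstep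
  set d := bdisp τ ρ x α β with hdd
  have hnn : ∀ c w, 0 ≤ netC step d c w := net_nonneg τ ρ x α β hα hβ
  obtain ⟨y, u₁, u₂, hy, hdec⟩ : ∃ y u₁ u₂, τ y ≠ 0 ∧ u = u₁ ++ y :: u₂ := by
    have h1 : ∃ y ∈ u, τ y ≠ 0 := by
      by_contra hcon
      push Not at hcon
      apply hu
      unfold tsum
      apply List.sum_eq_zero
      intro z hz
      obtain ⟨a, ha, rfl⟩ := List.mem_map.1 hz
      exact hcon a ha
    obtain ⟨y, hy, hy0⟩ := h1
    obtain ⟨u₁, u₂, rfl⟩ := List.append_of_mem hy
    exact ⟨y, u₁, u₂, hy0, rfl⟩
  have hrep := word_decomp u u₁ u₂ y hdec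
  -- the time at which `y` arrives at the root level
  obtain ⟨t', ht'⟩ := exists_level (c.1 + tsum τ u₁) (ρ - τ y) (tsum τ u) hu
  set s' := run step c ((List.replicate t' u).flatten ++ u₁) with hs'
  have hs'1 : s'.1 = ρ - τ y := by
    rw [hs', hstep, run_fst, tsum_append, tsum_replicate, ← ht']
    ring
  have hs'ne : s'.1 ≠ ρ := by
    rw [hs'1]
    intro h
    apply hy
    have : ρ - τ y - ρ = 0 := by rw [h]; ring
    simpa using this
  have hdy : d s' y = α s'.2 (decide (y = x)) := by
    have h3 : s'.1 + τ y = ρ := by rw [hs'1]; ring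
    simp [hdd, bdisp, hy, hs'ne, h3]
  by_cases hz : α s'.2 (decide (y = x)) = 0
  · obtain ⟨-, hbit⟩ := hb₀ _ _ hz
    -- now use the time at which `y` leaves the root level
    obtain ⟨t, ht⟩ := exists_level (c.1 + tsum τ u₁) ρ (tsum τ u) hu
    set s := run step c ((List.replicate t u).flatten ++ u₁) with hs
    have hs1 : s.1 = ρ := by
      rw [hs, hstep, run_fst, tsum_append, tsum_replicate, ← ht]
      ring
    have hstepy : step s y = (ρ + τ y, !b₀) := by
      simp [hstep, bstep, hy, hs1, hbit]
    obtain ⟨t'', ht''⟩ := exists_level (ρ + τ y + tsum τ u₂) ρ (tsum τ u) hu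
    have hne : ρ + τ y ≠ ρ := by
      intro h
      apply hy
      have : ρ + τ y - ρ = 0 := by rw [h]; ring
      simpa using this
    have hblock : 1 ≤ netC step d (ρ + τ y, !b₀) (u₂ ++ (List.replicate t'' u).flatten) := by
      apply net_block τ ρ x α β hα hβ (!b₀) _ _ _ hne
      · rw [tsum_append, tsum_replicate, ← add_assoc]
        exact ht''
      · intro t h
        have := (hb₀ _ _ h).1
        cases b₀ <;> simp at this
    refine ⟨t + 1 + t'', ?_⟩
    have hw : (List.replicate (t + 1 + t'') u).flatten =
        ((List.replicate t u).flatten ++ u₁) ++ y :: (u₂ ++ (List.replicate t'' u).flatten) := by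
      rw [rep_add, hrep]
      simp
    rw [hw, netC_append, netC_cons, ← hs, hstepy]
    have h1 := hnn c ((List.replicate t u).flatten ++ u₁)
    have h2 : d s y = 0 := by simp [hdd, bdisp, hy, hs1]
    omega
  · refine ⟨t' + 1, ?_⟩
    rw [hrep, List.append_assoc, ← List.append_assoc, netC_append, netC_cons, ← hs', hdy]
    have h1 := hnn c ((List.replicate t' u).flatten ++ u₁)
    have h2 := hnn (step s' y) u₂
    have h3 := hα s'.2 (decide (y = x))
    omega

/-- The hypothesis of the abstract criterion for the block walk. -/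
lemma block_H (hα : ∀ b t, 0 ≤ α b t) (hβ : ∀ a, 0 ≤ β a)
    (b₀ : Bool) (hb₀ : ∀ b t, α b t = 0 → b = b₀ ∧ t = !b₀)
    (u : List S) (c : ZMod p × Bool) (k : ℕ) (hk : 1 ≤ k)
    (h1 : run (bstep τ ρ x) c (List.replicate k u).flatten = c)
    (h2 : netC (bstep τ ρ x) (bdisp τ ρ x α β) c (List.replicate k u).flatten = 0) :
    run (bstep τ ρ x) c u = c := by
  set step := bstep τ ρ x with hstep
  set d := bdisp τ ρ x α β with hdd
  have hnn : ∀ c w, 0 ≤ netC step d c w := net_nonneg τ ρ x α β hα hβ
  by_cases hu : tsum τ u = 0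
  · obtain ⟨e, b⟩ := c
    rcases memory τ ρ x u e with ⟨c', h⟩ | h
    · have hc : ∀ b, run step (e, b) u = c' := h
      have hfst : c'.1 = e := by
        have := run_fst τ ρ x (e, b) u
        rw [← hstep, hc, hu, add_zero] at this
        exact this
      have hfix : run step c' u = c' := by
        obtain ⟨e', b'⟩ := c'
        simp only at hfst
        subst hfst
        exact hc b'
      have h3 : run step (e, b) (List.replicate k u).flatten = c' := by
        obtain ⟨j, rfl⟩ : ∃ j, k = j + 1 := ⟨k - 1, by omega⟩
        rw [List.replicate_succ, List.flatten_cons, run_append, hc]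
        exact run_replicate_fixed step c' u hfix j
      rw [hc b, ← h3, h1]
    · have := h b
      rw [hu, add_zero] at this
      exact this
  · exfalso
    obtain ⟨n, hn⟩ : ∃ n : ℕ, 1 ≤ netC step d c (List.replicate n u).flatten :=
      net_pos τ ρ x α β hα hβ b₀ hb₀ u hu c
    have hzero : ∀ N : ℕ, netC step d c (List.replicate (k * N) u).flatten = 0 := by
      intro N
      induction N with
      | zero => simp
      | succ N ih =>
        rw [mul_add, mul_one, add_comm, rep_add, netC_append, h2, h1, ih, add_zero]
    obtain ⟨j, hj⟩ : ∃ j, k * n = n + j := by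
      refine ⟨k * n - n, ?_⟩
      have : n ≤ k * n := Nat.le_mul_of_pos_left n (by omega)
      omega
    have h3 := hzero n
    rw [hj, rep_add, netC_append] at h3
    have h4 := hnn (run step c (List.replicate n u).flatten) (List.replicate j u).flatten
    omega

/-- The root of the block walk. -/
abbrev broot : ZMod p × Bool := (ρ, false)

/-- The block walks have star height at most one. -/
theorem block_meas [Finite S] (m : ℕ) [NeZero m]
    (hα0 : ∀ b t, 0 ≤ α b t) (hα1 : ∀ b t, α b t ≤ 1) (hβ0 : ∀ a, 0 ≤ β a) (hβ1 : ∀ a, β a ≤ 1)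
    (b₀ : Bool) (hb₀ : ∀ b t, α b t = 0 → b = b₀ ∧ t = !b₀) (c : ZMod p × Bool) :
    Meas (fun w : List S => (run (bstep τ ρ x) c w,
      ((netC (bstep τ ρ x) (bdisp τ ρ x α β) c w : ℤ) : ZMod m))) := by
  have hd : ∀ c a, |bdisp τ ρ x α β c a| ≤ 1 := by
    intro c a
    rw [abs_le]
    unfold bdisp
    split
    · split
      · exact ⟨by have := hβ0 a; omega, hβ1 a⟩
      · simp
    · split
      · simp
      · split
        · exact ⟨by have := hα0 c.2 (decide (a = x)); omega, hα1 _ _⟩
        · simp
  have harr : ∀ c a, bdisp τ ρ x α β c a ≠ 0 → bstep τ ρ x c a = broot ρ := by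
    intro c a h
    unfold bdisp at h
    unfold bstep
    by_cases h1 : τ a = 0
    · rw [if_pos h1] at h ⊢
      by_cases h2 : c.1 = ρ
      · simp [h2]
      · simp [h2] at h
    · rw [if_neg h1] at h ⊢
      by_cases h2 : c.1 = ρ
      · simp [h2] at h
      · rw [if_neg h2] at h ⊢
        by_cases h3 : c.1 + τ a = ρ
        · simp [h3]
        · simp [h3] at h
  have hroot : RootAp (qstep (bstep τ ρ x) (bdisp τ ρ x α β) m) (qroot m (broot ρ)) :=
    abstract_rootAp hd harr (fun u c k hk h1 h2 =>
      block_H τ ρ x α β hα0 hβ0 b₀ hb₀ u c k hk h1 h2)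
  rintro ⟨c', n⟩
  have := HS1_of_RootAp _ _ hroot (c, 0) (c', n)
  convert this using 1
  ext w
  rw [Set.mem_ofPred_eq, Set.mem_ofPred_eq, run_qstep, zero_add]

end Block

end Vale.Agent.Lib.P329
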