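import Vale.Agent.Lib.P329.Moments

/-! Nilpotent groups of class at most three. -/

namespace Vale.Agent.Lib.P329

set_option linter.unusedSectionVars false

open scoped commutatorElement

section Comm

variable {G B : Type} [Group G] [CommGroup B] (ι : B →* G) (hι : Function.Injective ι)
  (cc : G → B → B) (hcc : ∀ g b, ι (cc g b) = ⁅g, ι b⁆)
  (hZ : ∀ g b y, ι (cc g b) * y = y * ι (cc g b))

include hcc in
lemma conj_cc (g : G) (b : B) : g * ι b * g⁻¹ = ι (cc g b * b) := by
  rw [map_mul, hcc, commutatorElement_def]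
  group

include hι hcc in
lemma cc_mul_right (g : G) (b b' : B) : cc g (b * b') = cc g b * cc g b' := by
  have h1 : ι (cc g (b * b') * (b * b')) = ι (cc g b * b * (cc g b' * b')) := by
    rw [← conj_cc ι cc hcc, map_mul ι (cc g b * b), ← conj_cc ι cc hcc, ← conj_cc ι cc hcc, map_mul]
    group
  have h2 := hι h1
  have h3 : cc g (b * b') * (b * b') = (cc g b * cc g b') * (b * b') := by
    rw [h2]
    ac_rfl
  exact mul_right_cancel h3

include hι hcc in
lemma cc_one_right (g : G) : cc g 1 = 1 := by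
  have := cc_mul_right ι hι cc hcc g 1 1
  rw [mul_one] at this
  exact (left_eq_mul.1 this)

include hι hcc in
lemma cc_pow_right (g : G) (b : B) (m : ℕ) : cc g (b ^ m) = (cc g b) ^ m := by
  induction m with
  | zero =>
    simp only [pow_zero]
    exact cc_one_right ι hι cc hcc g
  | succ m ih => rw [pow_succ, cc_mul_right ι hι cc hcc, ih, pow_succ]

include hι hcc hZ in
lemma cc_central (g k : G) (b : B) : cc k (cc g b) = 1 := by
  apply hι
  rw [hcc, map_one, commutatorElement_eq_one_iff_mul_comm]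
  exact (hZ g b k).symm

include hι hcc hZ in
lemma cc_mul_left (g g' : G) (b : B) : cc (g * g') b = cc g b * cc g' b := by
  have h1 : ι (cc (g * g') b * b) = ι (cc g b * cc g' b * b) := by
    rw [← conj_cc ι cc hcc, mul_inv_rev]
    have h2 : g * g' * ι b * (g'⁻¹ * g⁻¹) = g * (g' * ι b * g'⁻¹) * g⁻¹ := by group
    rw [h2, conj_cc ι cc hcc g' b, conj_cc ι cc hcc g, cc_mul_right ι hι cc hcc,
      cc_central ι hι cc hcc hZ, one_mul]
    congr 1
    ac_rfl
  exact mul_right_cancel (hι h1)

include hι hcc hZ in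
lemma cc_one_left (b : B) : cc 1 b = 1 := by
  have := cc_mul_left ι hι cc hcc hZ 1 1 b
  rw [mul_one] at this
  exact (left_eq_mul.1 this)

include hι hcc hZ in
lemma cc_pow_left (g : G) (b : B) (m : ℕ) : cc (g ^ m) b = (cc g b) ^ m := by
  induction m with
  | zero =>
    simp only [pow_zero]
    exact cc_one_left ι hι cc hcc hZ b
  | succ m ih => rw [pow_succ, cc_mul_left ι hι cc hcc hZ, ih, pow_succ]

include hι hcc hZ in
/-- The commutator of a power. -/
lemma comm_pow (g y : G) (e₁ : B) (h₁ : ι e₁ = ⁅g, y⁆) (m : ℕ) :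
    ⁅g ^ m, y⁆ = ι (e₁ ^ m * (cc g e₁) ^ (m.choose 2)) := by
  induction m with
  | zero => simp
  | succ m ih =>
    have h2 : ⁅g ^ (m + 1), y⁆ = g * ⁅g ^ m, y⁆ * g⁻¹ * ⁅g, y⁆ := by
      rw [pow_succ', commutatorElement_def, commutatorElement_def, commutatorElement_def]
      group
    rw [h2, ih, conj_cc ι cc hcc, ← h₁, ← map_mul]
    congr 1
    rw [cc_mul_right ι hι cc hcc, cc_pow_right ι hι cc hcc, cc_pow_right ι hι cc hcc,
      cc_central ι hι cc hcc hZ, one_pow, mul_one]
    have h3 : (m + 1).choose 2 = m + m.choose 2 := by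
      have := Nat.choose_succ_succ m 1
      rw [Nat.choose_one_right] at this
      exact this
    rw [h3, pow_add (cc g e₁), pow_succ e₁]
    ac_rfl

end Comm

section Occ

variable {S B : Type} [DecidableEq S] [CommGroup B]

/-- The product, over the occurrences of `x`, of the values of `f` at the count vector of the
letters before that occurrence. -/
def occProd (x : S) (f : (S → ℕ) → B) : (S → ℕ) → List S → B
  | _, [] => 1
  | e, a :: w => (if a = x then f e else 1) * occProd x f (bump e a) w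

@[simp] lemma occProd_nil (x : S) (f : (S → ℕ) → B) (e : S → ℕ) : occProd x f e [] = 1 := rfl
@[simp] lemma occProd_cons (x : S) (f : (S → ℕ) → B) (e : S → ℕ) (a : S) (w : List S) :
    occProd x f e (a :: w) = (if a = x then f e else 1) * occProd x f (bump e a) w := rfl

lemma occProd_mul (x : S) (f f' : (S → ℕ) → B) (e : S → ℕ) (w : List S) :
    occProd x (fun n => f n * f' n) e w = occProd x f e w * occProd x f' e w := by
  induction w generalizing e with
  | nil => simp
  | cons a w ih =>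
    simp only [occProd_cons, ih]
    by_cases h : a = x
    · simp only [h, if_true]
      ac_rfl
    · simp only [h, if_false, one_mul]

lemma occProd_one (x : S) (e : S → ℕ) (w : List S) :
    occProd x (fun _ => (1 : B)) e w = 1 := by
  induction w generalizing e with
  | nil => simp
  | cons a w ih =>
    simp only [occProd_cons, ih]
    split <;> simp

lemma occProd_pow (x : S) (y : B) (g : (S → ℕ) → ℕ) (e : S → ℕ) (w : List S) :
    occProd x (fun n => y ^ g n) e w = y ^ occSum x g e w := by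
  induction w generalizing e with
  | nil => simp
  | cons a w ih =>
    simp only [occProd_cons, occSum_cons, ih, pow_add]
    split <;> simp

variable [Finite S] [Finite B]

/-- The function on count vectors whose product over occurrences is measurable. -/
def Good (x : S) (f : (S → ℕ) → B) : Prop :=
  Meas (fun w : List S => occProd x f (fun _ => 0) w)

lemma Good.mul {x : S} {f f' : (S → ℕ) → B} (h : Good x f) (h' : Good x f') :
    Good x (fun n => f n * f' n) := by
  unfold Good
  simp only [occProd_mul]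
  refine (Meas.prod h h').of_factor ?_
  intro w w' hw
  simp only [Prod.mk.injEq] at hw
  rw [hw.1, hw.2]

lemma good_one (x : S) : Good x (fun _ => (1 : B)) := by
  unfold Good
  simp only [occProd_one]
  intro b
  by_cases hb : (1 : B) = b
  · convert (HS.univ : HS 1 (Set.univ : Set (List S))) using 1
    ext w
    simp [hb]
  · convert (HS.empty : HS 1 (∅ : Set (List S))) using 1
    ext w
    simp [hb]

lemma good_pow {x : S} {g : (S → ℕ) → ℕ}
    (h : Meas (fun w : List S => ((occSum x g (fun _ => 0) w : ℕ) : ZMod (Nat.card B)))) (y : B) :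
    Good x (fun n => y ^ g n) := by
  have : NeZero (Nat.card B) := ⟨by
    have : 0 < Nat.card B := Nat.card_pos
    omega⟩
  unfold Good
  simp only [occProd_pow]
  refine h.of_factor ?_
  intro w w' hw
  rw [ZMod.natCast_eq_natCast_iff'] at hw
  rw [← pow_mod_natCard, hw, pow_mod_natCard]

lemma good_lin {x b : S} (h : x ≠ b) (y : B) : Good x (fun n => y ^ n b) :=
  have : NeZero (Nat.card B) := ⟨by
    have : 0 < Nat.card B := Nat.card_pos
    omega⟩
  good_pow (meas_lin (Nat.card B) x b h _) y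

lemma good_tri {x b : S} (h : x ≠ b) (y : B) : Good x (fun n => y ^ (n b).choose 2) :=
  have : NeZero (Nat.card B) := ⟨by
    have : 0 < Nat.card B := Nat.card_pos
    omega⟩
  good_pow (meas_tri (Nat.card B) x b h _) y

lemma good_bil {x b c : S} (hbc : b ≠ c) (h : x ≠ b ∨ x ≠ c) (y : B) :
    Good x (fun n => y ^ (n b * n c)) :=
  have : NeZero (Nat.card B) := ⟨by
    have : 0 < Nat.card B := Nat.card_pos
    omega⟩
  good_pow (meas_bil (Nat.card B) x b c hbc h) y

/-- Affine functions of the counts, with letters in a given set. -/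
inductive LinOn (P : S → Prop) : ((S → ℕ) → B) → Prop
  | one : LinOn P (fun _ => 1)
  | step {f : (S → ℕ) → B} (z : B) (d : S) (hd : P d) (hf : LinOn P f) :
      LinOn P (fun n => f n * z ^ n d)

lemma LinOn.good_pow {P : S → Prop} {f : (S → ℕ) → B} (hf : LinOn P f) (x c : S)
    (h : ∀ d, P d → d ≠ c ∧ (x ≠ d ∨ x ≠ c)) : Good x (fun n => (f n) ^ n c) := by
  induction hf with
  | one =>
    simp only [one_pow]
    exact good_one x
  | step z d hd hf ih =>
    simp only [mul_pow, ← pow_mul]
    exact ih.mul (good_bil (h d hd).1 (h d hd).2 z)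

end Occ

section LinMono

variable {S B : Type} [DecidableEq S] [CommGroup B]

lemma LinOn.mono {P P' : S → Prop} (hP : ∀ d, P d → P' d) {f : (S → ℕ) → B} (hf : LinOn P f) :
    LinOn P' f := by
  induction hf with
  | one => exact LinOn.one
  | step z d hd hf ih => exact LinOn.step z d (hP d hd) ih

end LinMono

section Main

variable {S G B : Type} [DecidableEq S] [Group G] [CommGroup B]
  (ι : B →* G) (hι : Function.Injective ι)
  (cc : G → B → B) (hcc : ∀ g b, ι (cc g b) = ⁅g, ι b⁆)
  (hZ : ∀ g b y, ι (cc g b) * y = y * ι (cc g b))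
  (φ : S → G) (e₁ : S → S → B) (he₁ : ∀ c x, ι (e₁ c x) = ⁅φ c, φ x⁆)

/-- The ordered product of powers of the letters of a list. -/
def hd (l : List S) (n : S → ℕ) : G := (l.map (fun d => φ d ^ n d)).prod

@[simp] lemma hd_nil (n : S → ℕ) : hd φ [] n = 1 := rfl
@[simp] lemma hd_cons (c : S) (l : List S) (n : S → ℕ) : hd φ (c :: l) n = φ c ^ n c * hd φ l n := by
  simp [hd]
lemma hd_append (l l' : List S) (n : S → ℕ) : hd φ (l ++ l') n = hd φ l n * hd φ l' n := by
  simp [hd]
lemma hd_congr (l : List S) {n n' : S → ℕ} (h : ∀ d ∈ l, n d = n' d) : hd φ l n = hd φ l n' := by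
  unfold hd
  congr 1
  apply List.map_congr_left
  intro d hd
  rw [h d hd]

/-- The commutator of a tail of the ordered product with a letter, as a function of the counts. -/
def Ftail (x : S) : List S → (S → ℕ) → B
  | [], _ => 1
  | c :: l, n => (cc (φ c) (Ftail x l n)) ^ n c * Ftail x l n *
      ((e₁ c x) ^ n c * (cc (φ c) (e₁ c x)) ^ (n c).choose 2)

@[simp] lemma Ftail_nil (x : S) (n : S → ℕ) : Ftail cc φ e₁ x [] n = 1 := rfl
@[simp] lemma Ftail_cons (x c : S) (l : List S) (n : S → ℕ) :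
    Ftail cc φ e₁ x (c :: l) n = (cc (φ c) (Ftail cc φ e₁ x l n)) ^ n c * Ftail cc φ e₁ x l n *
      ((e₁ c x) ^ n c * (cc (φ c) (e₁ c x)) ^ (n c).choose 2) := rfl

include hι hcc hZ he₁ in
lemma Ftail_spec (x : S) (l : List S) (n : S → ℕ) :
    ι (Ftail cc φ e₁ x l n) = ⁅hd φ l n, φ x⁆ := by
  induction l with
  | nil =>
    simp [commutatorElement_def]
  | cons c l ih =>
    rw [Ftail_cons, hd_cons]
    have h1 : ⁅φ c ^ n c * hd φ l n, φ x⁆ =
        φ c ^ n c * ⁅hd φ l n, φ x⁆ * (φ c ^ n c)⁻¹ * ⁅φ c ^ n c, φ x⁆ := by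
      simp only [commutatorElement_def]
      group
    rw [h1, ← ih, conj_cc ι cc hcc, cc_pow_left ι hι cc hcc hZ,
      comm_pow ι hι cc hcc hZ (φ c) (φ x) (e₁ c x) (he₁ c x), map_mul]

section Good

variable [Fintype S] [Finite B]

include hι hcc hZ in
lemma Ftail_good (x : S) (l : List S) (hx : x ∉ l) (hl : l.Nodup) :
    Good x (Ftail cc φ e₁ x l) ∧
      ∀ k, LinOn (fun d => d ∈ l) (fun n => cc k (Ftail cc φ e₁ x l n)) := by
  induction l with
  | nil =>
    constructor
    · exact good_one x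
    · intro k
      simp only [Ftail_nil, cc_one_right ι hι cc hcc k]
      exact LinOn.one
  | cons c l ih =>
    rw [List.nodup_cons] at hl
    have hxc : x ≠ c := fun h => hx (by simp [h])
    have hxl : x ∉ l := fun h => hx (by simp [h])
    obtain ⟨h1, h2⟩ := ih hxl hl.2
    constructor
    · have h3 : Good x (fun n => (cc (φ c) (Ftail cc φ e₁ x l n)) ^ n c) :=
        (h2 (φ c)).good_pow x c (fun d hd => ⟨fun h => hl.1 (h ▸ hd), Or.inl (fun h => hxl (h ▸ hd))⟩)
      exact (h3.mul h1).mul ((good_lin hxc _).mul (good_tri hxc _))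
    · intro k
      have h3 : (fun n => cc k (Ftail cc φ e₁ x (c :: l) n)) =
          fun n => cc k (Ftail cc φ e₁ x l n) * (cc k (e₁ c x)) ^ n c := by
        funext n
        rw [Ftail_cons, cc_mul_right ι hι cc hcc, cc_mul_right ι hι cc hcc,
          cc_mul_right ι hι cc hcc, cc_pow_right ι hι cc hcc, cc_pow_right ι hι cc hcc,
          cc_pow_right ι hι cc hcc, cc_central ι hι cc hcc hZ, cc_central ι hι cc hcc hZ]
        simp
      rw [h3]
      exact LinOn.step _ c (by simp) ((h2 k).mono (fun d hd => by simp [hd]))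

end Good

/-- The conjugate of a function of the counts by an ordered product. -/
def Wc (f : (S → ℕ) → B) : List S → (S → ℕ) → B
  | [], n => f n
  | i :: l, n => (cc (φ i) (Wc f l n)) ^ n i * Wc f l n

@[simp] lemma Wc_nil (f : (S → ℕ) → B) (n : S → ℕ) : Wc cc φ f [] n = f n := rfl
@[simp] lemma Wc_cons (f : (S → ℕ) → B) (i : S) (l : List S) (n : S → ℕ) :
    Wc cc φ f (i :: l) n = (cc (φ i) (Wc cc φ f l n)) ^ n i * Wc cc φ f l n := rfl

include hι hcc hZ in
lemma Wc_spec (f : (S → ℕ) → B) (l : List S) (n : S → ℕ) :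
    ι (Wc cc φ f l n) = hd φ l n * ι (f n) * (hd φ l n)⁻¹ := by
  induction l with
  | nil => simp
  | cons i l ih =>
    rw [Wc_cons, hd_cons, ← cc_pow_left ι hι cc hcc hZ, ← conj_cc ι cc hcc, ih]
    group

include hι hcc hZ in
lemma Wc_cc (f : (S → ℕ) → B) (l : List S) (n : S → ℕ) (k : G) :
    cc k (Wc cc φ f l n) = cc k (f n) := by
  induction l with
  | nil => rfl
  | cons i l ih =>
    rw [Wc_cons, cc_mul_right ι hι cc hcc, cc_pow_right ι hι cc hcc, cc_central ι hι cc hcc hZ, ih]
    simp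

section Good

variable [Fintype S] [Finite B]

include hι hcc hZ in
lemma Wc_good {P : S → Prop} (x : S) (f : (S → ℕ) → B) (hf : Good x f)
    (hL : ∀ k, LinOn P (fun n => cc k (f n))) (l : List S)
    (hl : ∀ i ∈ l, ∀ d, P d → d ≠ i ∧ (x ≠ d ∨ x ≠ i)) : Good x (Wc cc φ f l) := by
  induction l with
  | nil => exact hf
  | cons i l ih =>
    have h1 := ih (fun j hj d hd => hl j (by simp [hj]) d hd)
    have h2 : Good x (fun n => (cc (φ i) (f n)) ^ n i) :=
      (hL (φ i)).good_pow x i (fun d hd => hl i (by simp) d hd)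
    have h3 : Wc cc φ f (i :: l) = fun n => (cc (φ i) (f n)) ^ n i * Wc cc φ f l n := by
      funext n
      rw [Wc_cons, Wc_cc ι hι cc hcc hZ]
    rw [h3]
    exact h2.mul h1

include hι hcc hZ he₁ in
/-- The cocycle of the ordered product is a good function of the counts. -/
lemma exists_beta (l : List S) (hl : l.Nodup) (x : S) (hx : x ∈ l) :
    ∃ β : (S → ℕ) → B, Good x β ∧
      ∀ n, ι (β n) = hd φ l n * φ x * (hd φ l (bump n x))⁻¹ := by
  obtain ⟨l₁, l₂, rfl⟩ := List.append_of_mem hx
  have hnd := hl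
  rw [List.nodup_append] at hnd
  obtain ⟨h1, h2, h3⟩ := hnd
  rw [List.nodup_cons] at h2
  have hx1 : x ∉ l₁ := fun h => h3 x h x (by simp) rfl
  have hdisj : ∀ i ∈ l₁ ++ [x], ∀ d, d ∈ l₂ → d ≠ i ∧ (x ≠ d ∨ x ≠ i) := by
    intro i hi d hd
    refine ⟨?_, Or.inl (fun h => h2.1 (h ▸ hd))⟩
    rintro rfl
    rcases List.mem_append.1 hi with hi | hi
    · exact h3 d hi d (by simp [hd]) rfl
    · have : d = x := by simpa using hi
      exact h2.1 (this ▸ hd)
  obtain ⟨h4, h5⟩ := Ftail_good ι hι cc hcc hZ φ e₁ x l₂ h2.1 h2.2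
  refine ⟨Wc cc φ (Ftail cc φ e₁ x l₂) (l₁ ++ [x]), Wc_good ι hι cc hcc hZ φ x _ h4 h5 _ hdisj, ?_⟩
  intro n
  rw [Wc_spec ι hι cc hcc hZ, Ftail_spec ι hι cc hcc hZ φ e₁ he₁]
  have h6 : hd φ l₁ (bump n x) = hd φ l₁ n :=
    hd_congr φ l₁ (fun d hd => bump_ne n (fun h => hx1 (h ▸ hd)))
  have h7 : hd φ l₂ (bump n x) = hd φ l₂ n :=
    hd_congr φ l₂ (fun d hd => bump_ne n (fun h => h2.1 (h ▸ hd)))
  have h8 : bump n x x = n x + 1 := bump_self n x
  rw [hd_append, hd_append, hd_append, hd_cons, hd_cons, hd_cons, h6, h7, h8, hd_nil, pow_succ]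
  simp only [commutatorElement_def]
  group

end Good

/-- The count vector at the end of a word. -/
def endv (e : S → ℕ) (w : List S) : S → ℕ := w.foldl bump e

lemma endv_apply (e : S → ℕ) (w : List S) (b : S) : endv e w b = e b + w.count b := by
  induction w generalizing e with
  | nil => simp [endv]
  | cons a w ih =>
    have h1 : endv e (a :: w) = endv (bump e a) w := rfl
    rw [h1, ih, List.count_cons]
    simp only [bump, beq_iff_eq]
    by_cases h : a = b
    · subst h
      simp
      ring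
    · have : b ≠ a := fun hh => h hh.symm
      simp [this, h]

/-- The formula for the value of a word. -/
lemma word_formula3 [Fintype S] (t : (S → ℕ) → G) (β : S → (S → ℕ) → B)
    (hβ : ∀ x n, ι (β x n) = t n * φ x * (t (bump n x))⁻¹) (e : S → ℕ) (w : List S) :
    t e * (w.map φ).prod = ι (∏ x : S, occProd x (β x) e w) * t (endv e w) := by
  induction w generalizing e with
  | nil => simp [endv]
  | cons a w ih =>
    have h1 : t e * φ a = ι (β a e) * t (bump e a) := by
      rw [hβ]
      group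
    have h2 : endv e (a :: w) = endv (bump e a) w := rfl
    simp only [List.map_cons, List.prod_cons, occProd_cons]
    rw [← mul_assoc, h1, mul_assoc, ih, h2, ← mul_assoc, ← map_mul, Finset.prod_mul_distrib]
    congr 3
    rw [Finset.prod_ite_eq Finset.univ a]
    simp

lemma hd_zero (l : List S) : hd φ l (fun _ => 0) = 1 := by
  induction l with
  | nil => rfl
  | cons c l ih => simp [ih]

lemma hd_mod [Finite G] (l : List S) {n n' : S → ℕ}
    (h : ∀ b, ((n b : ℕ) : ZMod (Nat.card G)) = ((n' b : ℕ) : ZMod (Nat.card G))) :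
    hd φ l n = hd φ l n' := by
  unfold hd
  congr 1
  apply List.map_congr_left
  intro d _
  have h1 := h d
  rw [ZMod.natCast_eq_natCast_iff'] at h1
  rw [← pow_mod_natCard, h1, pow_mod_natCard]

include hι hcc hZ he₁ in
/-- The general theorem. -/
theorem class_three_core [Fintype S] [Finite G] [Finite B] :
    Meas (fun w : List S => (w.map φ).prod) := by
  classical
  have hl := Finset.univ.nodup_toList (α := S)
  have hmem : ∀ x : S, x ∈ (Finset.univ : Finset S).toList := fun x => by simp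
  choose β hβ1 hβ2 using fun x => exists_beta ι hι cc hcc hZ φ e₁ he₁ _ hl x (hmem x)
  have hform : ∀ w : List S, (w.map φ).prod =
      ι (∏ x : S, occProd x (β x) (fun _ => 0) w) *
        hd φ (Finset.univ : Finset S).toList (endv (fun _ => 0) w) := by
    intro w
    have h1 := word_formula3 ι φ (hd φ (Finset.univ : Finset S).toList) β hβ2 (fun _ => 0) w
    rw [hd_zero, one_mul] at h1
    exact h1
  have : NeZero (Nat.card G) := ⟨by
    have : 0 < Nat.card G := Nat.card_pos
    omega⟩
  have h1 : Meas (fun w : List S => fun x : S => occProd x (β x) (fun _ => 0) w) :=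
    Meas.pi hβ1
  have h2 : Meas (fun w : List S => fun b : S => ((w.count b : ℕ) : ZMod (Nat.card G))) :=
    Meas.pi (fun b => count_meas b _)
  refine (h1.prod h2).of_factor ?_
  intro w w' hw
  simp only [Prod.mk.injEq, funext_iff] at hw
  obtain ⟨h3, h4⟩ := hw
  rw [hform w, hform w']
  congr 1
  · congr 1
    exact Finset.prod_congr rfl (fun x _ => h3 x)
  · apply hd_mod
    intro b
    rw [endv_apply, endv_apply, zero_add, zero_add]
    exact h4 b

end Main

section Final

variable {S G : Type} [DecidableEq S] [Fintype S] [Group G] [Finite G]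

/-- The theorem for an abelian subgroup containing the commutators, whose commutators with
the elements of the group are central. -/
theorem class_three_sub (A : Subgroup G) (hA : ∀ a ∈ A, ∀ b ∈ A, a * b = b * a)
    (hcomm : ∀ g h : G, ⁅g, h⁆ ∈ A) (hcent : ∀ (g : G), ∀ x ∈ A, ∀ y : G, ⁅g, x⁆ * y = y * ⁅g, x⁆)
    (φ : S → G) : Meas (fun w : List S => (w.map φ).prod) := by
  classical
  let _ : CommGroup A := { (inferInstance : Group A) with
    mul_comm := fun a b => Subtype.ext (hA a.1 a.2 b.1 b.2) }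
  refine class_three_core (B := A) A.subtype (Subtype.val_injective)
    (fun g b => ⟨⁅g, (b : G)⁆, hcomm g b⟩) ?_ ?_ φ (fun c x => ⟨⁅φ c, φ x⁆, hcomm _ _⟩) ?_
  · intro g b
    rfl
  · intro g b y
    exact hcent g b.1 b.2 y
  · intro c x
    rfl

/-- The theorem for groups in which all commutators of weight four vanish. -/
theorem class_three_meas (h : ∀ x y z w : G, ⁅⁅⁅x, y⁆, z⁆, w⁆ = 1) (φ : S → G) :
    Meas (fun w : List S => (w.map φ).prod) := by
  classical
  have hz1 : ∀ x : G, x ∈ Subgroup.upperCentralSeries G 1 ↔ ∀ y : G, ⁅x, y⁆ = 1 := by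
    intro x
    rw [Subgroup.mem_upperCentralSeries_succ_iff]
    simp only [Subgroup.upperCentralSeries_zero, Subgroup.mem_bot, commutatorElement_def]
  have hz2 : ∀ x y : G, ⁅x, y⁆ ∈ Subgroup.upperCentralSeries G 2 := by
    intro x y
    rw [Subgroup.mem_upperCentralSeries_succ_iff]
    intro z
    rw [hz1]
    intro w
    exact h x y z w
  have hle : ⁅(⊤ : Subgroup G), (⊤ : Subgroup G)⁆ ≤ Subgroup.upperCentralSeries G 2 :=
    Subgroup.commutator_le.2 (fun a _ b _ => hz2 a b)
  have hAZ : ∀ x ∈ ⁅(⊤ : Subgroup G), (⊤ : Subgroup G)⁆, ∀ z : G, ⁅x, z⁆ ∈ Subgroup.upperCentralSeries G 1 := by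
    intro x hx z
    exact Subgroup.mem_upperCentralSeries_succ_iff.1 (hle hx) z
  have hAZ' : ∀ z : G, ∀ x ∈ ⁅(⊤ : Subgroup G), (⊤ : Subgroup G)⁆, ⁅z, x⁆ ∈ Subgroup.upperCentralSeries G 1 := by
    intro z x hx
    have h1 : ⁅z, x⁆ = ⁅x, z⁆⁻¹ := by
      simp only [commutatorElement_def]
      group
    rw [h1]
    exact inv_mem (hAZ x hx z)
  have hbot1 : ⁅⁅(⊤ : Subgroup G), ⁅(⊤ : Subgroup G), (⊤ : Subgroup G)⁆⁆, (⊤ : Subgroup G)⁆ = ⊥ := by
    rw [eq_bot_iff, Subgroup.commutator_le]
    intro a ha b _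
    have h1 : a ∈ Subgroup.upperCentralSeries G 1 := by
      have h2 : ⁅(⊤ : Subgroup G), ⁅(⊤ : Subgroup G), (⊤ : Subgroup G)⁆⁆ ≤ Subgroup.upperCentralSeries G 1 :=
        Subgroup.commutator_le.2 (fun z _ x hx => hAZ' z x hx)
      exact h2 ha
    rw [Subgroup.mem_bot]
    exact (hz1 a).1 h1 b
  have hbot2 : ⁅⁅⁅(⊤ : Subgroup G), (⊤ : Subgroup G)⁆, (⊤ : Subgroup G)⁆, (⊤ : Subgroup G)⁆ = ⊥ := by
    rw [eq_bot_iff, Subgroup.commutator_le]
    intro a ha b _
    have h1 : a ∈ Subgroup.upperCentralSeries G 1 := by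
      have h2 : ⁅⁅(⊤ : Subgroup G), (⊤ : Subgroup G)⁆, (⊤ : Subgroup G)⁆ ≤ Subgroup.upperCentralSeries G 1 :=
        Subgroup.commutator_le.2 (fun x hx z _ => hAZ x hx z)
      exact h2 ha
    rw [Subgroup.mem_bot]
    exact (hz1 a).1 h1 b
  have hbot3 : ⁅⁅(⊤ : Subgroup G), (⊤ : Subgroup G)⁆, ⁅(⊤ : Subgroup G), (⊤ : Subgroup G)⁆⁆ = ⊥ :=
    Subgroup.commutator_commutator_eq_bot_of_rotate hbot1 hbot2
  refine class_three_sub ⁅(⊤ : Subgroup G), (⊤ : Subgroup G)⁆ ?_ ?_ ?_ φ
  · intro a ha b hb
    have h1 : ⁅a, b⁆ = 1 := by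
      have h2 : ⁅a, b⁆ ∈ ⁅⁅(⊤ : Subgroup G), (⊤ : Subgroup G)⁆, ⁅(⊤ : Subgroup G), (⊤ : Subgroup G)⁆⁆ :=
        Subgroup.commutator_mem_commutator ha hb
      rw [hbot3] at h2
      exact Subgroup.mem_bot.1 h2
    exact commutatorElement_eq_one_iff_mul_comm.1 h1
  · intro g h'
    exact Subgroup.commutator_mem_commutator (Subgroup.mem_top g) (Subgroup.mem_top h')
  · intro g x hx y
    have h1 := (hz1 _).1 (hAZ' g x hx) y
    exact commutatorElement_eq_one_iff_mul_comm.1 h1

end Final

end Vale.Agent.Lib.P329
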