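import Mathlib

/-!
Generalized regular expressions over an alphabet `S` and their star height,
exactly as in the problem statement.
-/

namespace Vale.Agent.Lib.P329

/-- Generalized regular expressions: constants `0`, `1`, letters, union, concatenation,
complement and Kleene star. -/
inductive GExpr (S : Type) : Type
  | zero : GExpr S
  | one : GExpr S
  | letter (a : S) : GExpr S
  | add (P Q : GExpr S) : GExpr S
  | mul (P Q : GExpr S) : GExpr S
  | compl (P : GExpr S) : GExpr S
  | star (P : GExpr S) : GExpr S

/-- The language denoted by an expression; complement is taken in the set of all words. -/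
def lang {S : Type} : GExpr S → Set (List S)
  | .zero => ∅
  | .one => {[]}
  | .letter a => {[a]}
  | .add P Q => lang P ∪ lang Q
  | .mul P Q => {w | ∃ u ∈ lang P, ∃ v ∈ lang Q, w = u ++ v}
  | .compl P => (lang P)ᶜ
  | .star P => {w | ∃ l : List (List S), (∀ u ∈ l, u ∈ lang P) ∧ w = l.flatten}

/-- The star height of an expression. -/
def sh {S : Type} : GExpr S → ℕ
  | .zero => 0
  | .one => 0
  | .letter _ => 0
  | .add P Q => max (sh P) (sh Q)
  | .mul P Q => max (sh P) (sh Q)
  | .compl P => sh P
  | .star P => sh P + 1

end Vale.Agent.Lib.P329
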