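import Vale.Agent.Lib.P329.ElemTop

/-! Finite groups with an abelian normal subgroup and elementary abelian quotient. -/

namespace Vale.Agent.Lib.P329

section

variable {S G : Type} [DecidableEq S] [Fintype S] [Group G] [Finite G]

/-- The abstract form, for a homomorphism onto an elementary abelian group. -/
theorem elem_of_hom {V : Type} [AddCommGroup V] [Fintype V] [DecidableEq V]
    (p : ℕ) [Fact p.Prime] [Module (ZMod p) V]
    (A : Subgroup G) (hA : ∀ a ∈ A, ∀ b ∈ A, a * b = b * a)
    (π : G → V) (hπ : ∀ g h, π (g * h) = π g + π h) (hsurj : Function.Surjective π)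
    (hker : ∀ g, π g = 0 → g ∈ A) (φ : S → G) :
    Meas (fun w : List S => (w.map φ).prod) := by
  classical
  let out : V → G := Function.surjInv hsurj
  have hout : ∀ v, π (out v) = v := Function.surjInv_eq hsurj
  let tt : V → G := fun v => out v * (out 0)⁻¹
  have hπ1 : π 1 = 0 := by
    have := hπ 1 1
    rw [mul_one] at this
    simpa using this
  have hπinv : ∀ g, π g⁻¹ = - π g := by
    intro g
    have : π (g * g⁻¹) = 0 := by rw [mul_inv_cancel]; exact hπ1
    rw [hπ] at this
    exact eq_neg_of_add_eq_zero_right this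
  have htt : ∀ v, π (tt v) = v := by
    intro v
    simp only [tt]
    rw [hπ, hπinv, hout, hout]
    simp
  have hmem : ∀ a E, tt E * φ a * (tt (E + π (φ a)))⁻¹ ∈ A := by
    intro a E
    apply hker
    rw [hπ, hπ, hπinv, htt, htt]
    abel
  exact elem_top_meas p A hA φ (fun a => π (φ a)) tt (by simp [tt]) hmem

/-- Words over a group with an abelian normal subgroup with elementary abelian quotient. -/
theorem elem_index_meas (A : Subgroup G) [A.Normal] (hA : ∀ a ∈ A, ∀ b ∈ A, a * b = b * a)
    (p : ℕ) (hp : p.Prime) (hpow : ∀ g : G, g ^ p ∈ A) (hcomm : ∀ g h : G, g * h * g⁻¹ * h⁻¹ ∈ A)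
    (φ : S → G) : Meas (fun w : List S => (w.map φ).prod) := by
  classical
  have : Fact p.Prime := ⟨hp⟩
  let instC : CommGroup (G ⧸ A) := { (inferInstance : Group (G ⧸ A)) with
    mul_comm := by
      intro x y
      obtain ⟨g, rfl⟩ := QuotientGroup.mk'_surjective A x
      obtain ⟨h, rfl⟩ := QuotientGroup.mk'_surjective A y
      have h1 := (QuotientGroup.eq_one_iff (g * h * g⁻¹ * h⁻¹)).2 (hcomm g h)
      have h2 : QuotientGroup.mk' A g * QuotientGroup.mk' A h * (QuotientGroup.mk' A g)⁻¹ *
          (QuotientGroup.mk' A h)⁻¹ = 1 := by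
        simpa using h1
      rw [mul_inv_eq_one, mul_inv_eq_iff_eq_mul] at h2
      exact h2 }
  have hfin : Finite (Additive (G ⧸ A)) := inferInstanceAs (Finite (G ⧸ A))
  let _ : Fintype (Additive (G ⧸ A)) := Fintype.ofFinite _
  have hV : ∀ x : Additive (G ⧸ A), p • x = 0 := by
    intro x
    obtain ⟨g, hg⟩ := QuotientGroup.mk'_surjective A (Additive.toMul x)
    have h1 : Additive.toMul (p • x) = 1 := by
      rw [toMul_nsmul, ← hg, ← map_pow]
      exact (QuotientGroup.eq_one_iff _).2 (hpow g)
    exact h1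
  let _ : Module (ZMod p) (Additive (G ⧸ A)) := AddCommGroup.zmodModule hV
  refine elem_of_hom p A hA (fun g => Additive.ofMul (QuotientGroup.mk' A g)) ?_ ?_ ?_ φ
  · intro g h
    rw [map_mul, ofMul_mul]
  · intro v
    obtain ⟨g, hg⟩ := QuotientGroup.mk'_surjective A (Additive.toMul v)
    refine ⟨g, ?_⟩
    change Additive.ofMul (QuotientGroup.mk' A g) = v
    rw [hg]
    rfl
  · intro g h
    exact (QuotientGroup.eq_one_iff g).1 h

end

end Vale.Agent.Lib.P329
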