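import Vale.Agent.Lib.P329.PrimeIndex

/-! Groups with an abelian normal subgroup whose quotient is an elementary abelian group. -/

namespace Vale.Agent.Lib.P329

set_option linter.unusedSectionVars false
set_option linter.unusedVariables false

section Level

variable {S V : Type} [DecidableEq S] [AddCommGroup V] [DecidableEq V] (τ : S → V)

/-- Occurrences of the letter `x` read at level `g`, the word being read from level `e`. -/
def cntV (x : S) (g : V) : V → List S → ℕ
  | _, [] => 0
  | e, a :: w => (if a = x ∧ e = g then 1 else 0) + cntV x g (e + τ a) w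

@[simp] lemma cntV_nil (x : S) (g e : V) : cntV τ x g e [] = 0 := rfl
@[simp] lemma cntV_cons (x : S) (g e : V) (a : S) (w : List S) :
    cntV τ x g e (a :: w) = (if a = x ∧ e = g then 1 else 0) + cntV τ x g (e + τ a) w := rfl

/-- The sum of the increments along a word. -/
def tsumV (w : List S) : V := (w.map τ).sum

@[simp] lemma tsumV_nil : tsumV τ [] = 0 := rfl
@[simp] lemma tsumV_cons (a : S) (w : List S) : tsumV τ (a :: w) = τ a + tsumV τ w := by
  simp [tsumV]

variable [Fintype V]

lemma sum_cntV (x : S) (e : V) (w : List S) :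
    ∑ g : V, cntV τ x g e w = cntF (fun _ => false) x false w := by
  induction w generalizing e with
  | nil => simp
  | cons a w ih =>
    simp only [cntV_cons, cntF_cons, Finset.sum_add_distrib]
    rw [ih (e + τ a)]
    congr 1
    by_cases h : a = x
    · simp [h]
    · simp [h]

variable {p : ℕ} [hp : Fact p.Prime]

/-- The fibres of a homomorphism to `ZMod p`. -/
lemma cnt_hom (χ : V →+ ZMod p) (x : S) (h : ZMod p) (e : V) (w : List S) :
    cnt (fun a => χ (τ a)) x h (χ e) w = ∑ g : V, if χ g = h then cntV τ x g e w else 0 := by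
  induction w generalizing e with
  | nil => simp
  | cons a w ih =>
    simp only [cnt_cons, cntV_cons]
    have h0 := ih (e + τ a)
    rw [map_add] at h0
    rw [h0]
    have h1 : ∀ g : V, (if χ g = h then (if a = x ∧ e = g then 1 else 0) + cntV τ x g (e + τ a) w
        else 0) = (if χ g = h then (if a = x ∧ e = g then 1 else 0) else 0)
          + (if χ g = h then cntV τ x g (e + τ a) w else 0) := by
      intro g
      split <;> simp
    rw [Finset.sum_congr rfl (fun g _ => h1 g), Finset.sum_add_distrib]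
    congr 1
    by_cases hax : a = x
    · subst hax
      simp only [true_and]
      by_cases hh : χ e = h
      · rw [if_pos hh, Finset.sum_eq_single e]
        · simp [hh]
        · intro g _ hg
          have : ¬ e = g := fun hh => hg hh.symm
          simp [this]
        · simp
      · rw [if_neg hh]
        symm
        apply Finset.sum_eq_zero
        intro g _
        by_cases hg : e = g
        · subst hg
          simp [hh]
        · simp [hg]
    · simp [hax]

variable [Module (ZMod p) V]

lemma exists_char (v : V) (hv : v ≠ 0) (t : ZMod p) : ∃ χ : V →+ ZMod p, χ v = t := by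
  have h1 : ¬ ∀ f : Module.Dual (ZMod p) V, f v = 0 := by
    rw [Module.forall_dual_apply_eq_zero_iff]
    exact hv
  push Not at h1
  obtain ⟨f, hf⟩ := h1
  refine ⟨((t / f v) • f).toAddMonoidHom, ?_⟩
  simp only [LinearMap.toAddMonoidHom_coe, LinearMap.smul_apply, smul_eq_mul]
  field_simp

/-- The number of homomorphisms vanishing at a nonzero vector. -/
lemma card_vanish [Fintype (V →+ ZMod p)] (v : V) (hv : v ≠ 0) :
    (Finset.univ.filter (fun χ : V →+ ZMod p => χ v = 0)).card * p = Fintype.card (V →+ ZMod p) := by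
  classical
  let ψ : (V →+ ZMod p) →+ ZMod p :=
    { toFun := fun χ => χ v
      map_zero' := rfl
      map_add' := fun _ _ => rfl }
  have hsurj : Function.Surjective ψ := fun t => exists_char v hv t
  have h1 := AddSubgroup.card_mul_index ψ.ker
  have h2 := AddSubgroup.index_ker ψ
  have h3 : ψ.range = ⊤ := AddMonoidHom.range_eq_top.2 hsurj
  rw [h3] at h2
  have h4 : Nat.card (⊤ : AddSubgroup (ZMod p)) = p := by
    rw [Nat.card_congr AddSubgroup.topEquiv.toEquiv]
    rw [Nat.card_eq_fintype_card, ZMod.card]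
  rw [h2, h4] at h1
  rw [Nat.card_eq_fintype_card (α := V →+ ZMod p)] at h1
  rw [← h1]
  congr 1
  symm
  apply Nat.subtype_card
  intro χ
  simp [ψ, AddMonoidHom.mem_ker]

/-- The Radon inversion identity. -/
lemma radon [Fintype (V →+ ZMod p)] (x : S) (g e : V) (w : List S) :
    (p : ℤ) * ∑ χ : V →+ ZMod p, (cnt (fun a => χ (τ a)) x (χ g) (χ e) w : ℤ) =
      (Fintype.card (V →+ ZMod p) : ℤ) *
        (((p : ℤ) - 1) * (cntV τ x g e w : ℤ) + (cntF (fun _ => false) x false w : ℤ)) := by
  classical
  have h1 : ∀ χ : V →+ ZMod p, (cnt (fun a => χ (τ a)) x (χ g) (χ e) w : ℤ) =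
      ∑ v : V, if χ (v - g) = 0 then (cntV τ x v e w : ℤ) else 0 := by
    intro χ
    rw [cnt_hom]
    push_cast
    apply Finset.sum_congr rfl
    intro v _
    simp only [map_sub, sub_eq_zero]
  rw [Finset.sum_congr rfl (fun χ _ => h1 χ), Finset.sum_comm, Finset.mul_sum]
  have h2 : ∀ v : V, (p : ℤ) * ∑ χ : V →+ ZMod p, (if χ (v - g) = 0 then (cntV τ x v e w : ℤ) else 0)
      = (Fintype.card (V →+ ZMod p) : ℤ) * ((cntV τ x v e w : ℤ) +
          if v = g then ((p : ℤ) - 1) * (cntV τ x v e w : ℤ) else 0) := by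
    intro v
    rw [Finset.sum_ite, Finset.sum_const_zero, add_zero, Finset.sum_const, nsmul_eq_mul]
    by_cases hv : v = g
    · subst hv
      simp only [sub_self, map_zero, Finset.filter_true_of_mem, Finset.mem_univ, implies_true,
        Finset.card_univ, if_true]
      ring
    · have h3 := card_vanish (p := p) (v - g) (sub_ne_zero.2 hv)
      rw [if_neg hv, add_zero, ← mul_assoc]
      congr 1
      rw [← h3]
      push_cast
      ring
  rw [Finset.sum_congr rfl (fun v _ => h2 v), ← Finset.mul_sum, Finset.sum_add_distrib]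
  congr 1
  rw [Finset.sum_ite_eq' Finset.univ g, if_pos (Finset.mem_univ g), add_comm]
  congr 1
  rw [← sum_cntV τ x e w]
  push_cast
  rfl

end Level

section LevelMeas

variable {S V : Type} [DecidableEq S] [Finite S] [AddCommGroup V] [DecidableEq V] [Fintype V]
  (τ : S → V)

/-- The counts at a level of an elementary abelian group are measurable. -/
theorem cntV_meas (p : ℕ) [hp : Fact p.Prime] [Module (ZMod p) V] (x : S) (g e : V) (n : ℕ) [NeZero n] :
    Meas (fun w : List S => ((cntV τ x g e w : ℕ) : ZMod n)) := by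
  classical
  have hfin : Finite (V →+ ZMod p) :=
    Finite.of_injective (fun f : V →+ ZMod p => (f : V → ZMod p)) DFunLike.coe_injective
  have : Fintype (V →+ ZMod p) := Fintype.ofFinite _
  set K := Fintype.card (V →+ ZMod p) with hK
  have hK0 : 0 < K := Fintype.card_pos
  have hp2 := (Fact.out : p.Prime).two_le
  obtain ⟨q, hq⟩ : ∃ q, p = q + 1 := ⟨p - 1, by omega⟩
  have hq0 : 0 < q := by omega
  have hM : NeZero (K * q * n) := ⟨by
    have := NeZero.ne n
    simp [hK0.ne', hq0.ne', this]⟩
  have h1 : Meas (fun w : List S => fun χ : V →+ ZMod p =>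
      ((cnt (fun a => χ (τ a)) x (χ g) (χ e) w : ℕ) : ZMod (K * q * n))) :=
    Meas.pi (fun χ => cnt_meas_prime (fun a => χ (τ a)) x (χ g) (χ e) (K * q * n))
  have h2 : Meas (fun w : List S => ((cntF (fun _ => false) x false w : ℕ) : ZMod (K * q * n))) :=
    cnt_meas (fun _ => false) x false (K * q * n)
  refine (h1.prod h2).of_factor ?_
  intro w w' hw
  simp only [Prod.mk.injEq, funext_iff] at hw
  obtain ⟨h3, h4⟩ := hw
  have h5 := radon (p := p) τ x g e w
  have h6 := radon (p := p) τ x g e w'
  have h7 : ((K * q * n : ℕ) : ℤ) ∣ (cntF (fun _ => false) x false w' : ℤ)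
      - (cntF (fun _ => false) x false w : ℤ) :=
    (ZMod.intCast_eq_intCast_iff_dvd_sub _ _ _).1 (by exact_mod_cast h4)
  have h8 : ((K * q * n : ℕ) : ℤ) ∣ ∑ χ : V →+ ZMod p,
      ((cnt (fun a => χ (τ a)) x (χ g) (χ e) w' : ℤ) - (cnt (fun a => χ (τ a)) x (χ g) (χ e) w : ℤ)) := by
    apply Finset.dvd_sum
    intro χ _
    exact (ZMod.intCast_eq_intCast_iff_dvd_sub _ _ _).1 (by exact_mod_cast h3 χ)
  rw [Finset.sum_sub_distrib] at h8
  have h9 : ((K * q * n : ℕ) : ℤ) ∣ (K : ℤ) * q * ((cntV τ x g e w' : ℤ) - (cntV τ x g e w : ℤ)) := by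
    have h10 : (K : ℤ) * q * ((cntV τ x g e w' : ℤ) - (cntV τ x g e w : ℤ)) =
        (p : ℤ) * (∑ χ : V →+ ZMod p, (cnt (fun a => χ (τ a)) x (χ g) (χ e) w' : ℤ)
          - ∑ χ : V →+ ZMod p, (cnt (fun a => χ (τ a)) x (χ g) (χ e) w : ℤ))
        - (K : ℤ) * ((cntF (fun _ => false) x false w' : ℤ)
          - (cntF (fun _ => false) x false w : ℤ)) := by
      have hqz : (p : ℤ) - 1 = q := by
        rw [hq]
        push_cast
        ring
      rw [mul_sub (p : ℤ), h5, h6, ← hK, hqz]
      ring
    rw [h10]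
    apply dvd_sub (Dvd.dvd.mul_left h8 _) (Dvd.dvd.mul_left h7 _)
  have h11 : (n : ℤ) ∣ (cntV τ x g e w' : ℤ) - (cntV τ x g e w : ℤ) := by
    have hKq : (K : ℤ) * q ≠ 0 := by
      have : (K : ℤ) ≠ 0 := by exact_mod_cast hK0.ne'
      have : (q : ℤ) ≠ 0 := by exact_mod_cast hq0.ne'
      positivity
    push_cast at h9
    exact (mul_dvd_mul_iff_left hKq).1 h9
  have h12 := (ZMod.intCast_eq_intCast_iff_dvd_sub (cntV τ x g e w : ℤ) (cntV τ x g e w' : ℤ) n).2 h11
  exact_mod_cast h12

/-- The final level is measurable. -/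
theorem tsumV_meas (p : ℕ) [hp : Fact p.Prime] [Module (ZMod p) V] : Meas (tsumV τ) := by
  classical
  have hfin : Finite (V →+ ZMod p) :=
    Finite.of_injective (fun f : V →+ ZMod p => (f : V → ZMod p)) DFunLike.coe_injective
  have h1 : Meas (fun w : List S => fun χ : V →+ ZMod p => tsum (fun a => χ (τ a)) w) :=
    Meas.pi (fun χ => tsum_meas (fun a => χ (τ a)))
  refine h1.of_factor ?_
  intro w w' hw
  have h2 : ∀ (χ : V →+ ZMod p) (w : List S), tsum (fun a => χ (τ a)) w = χ (tsumV τ w) := by
    intro χ w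
    induction w with
    | nil => simp
    | cons a w ih => simp [ih]
  by_contra hne
  obtain ⟨χ, hχ⟩ := exists_char (p := p) (tsumV τ w - tsumV τ w') (sub_ne_zero.2 hne) 1
  have h3 := congrFun hw χ
  rw [h2, h2] at h3
  rw [map_sub, h3, sub_self] at hχ
  exact zero_ne_one hχ

end LevelMeas

section GroupElem

variable {S G V : Type} [DecidableEq S] [Fintype S] [Group G] [AddCommGroup V] [DecidableEq V]
  [Fintype V]

/-- The formula for the value of a word. -/
lemma word_formula_V {B : Type} [CommGroup B] (ι : B →* G) (τ : S → V) (φ : S → G)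
    (tt : V → G) (β : S → V → B)
    (hβ : ∀ a E, ι (β a E) * tt (E + τ a) = tt E * φ a) (w : List S) (E : V) :
    tt E * (w.map φ).prod =
      ι (∏ q : S × V, β q.1 q.2 ^ (cntV τ q.1 q.2 E w)) * tt (E + tsumV τ w) := by
  induction w generalizing E with
  | nil => simp
  | cons a w ih =>
    simp only [List.map_cons, List.prod_cons, tsumV_cons, cntV_cons]
    rw [← mul_assoc, ← hβ a E, mul_assoc, ih (E + τ a)]
    rw [← mul_assoc, ← map_mul, add_assoc]
    congr 2
    have h1 : ∀ q : S × V, β q.1 q.2 ^ ((if a = q.1 ∧ E = q.2 then 1 else 0) +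
        cntV τ q.1 q.2 (E + τ a) w) =
        β q.1 q.2 ^ (if a = q.1 ∧ E = q.2 then 1 else 0) *
          β q.1 q.2 ^ (cntV τ q.1 q.2 (E + τ a) w) := fun q => pow_add _ _ _
    rw [Finset.prod_congr rfl (fun q _ => h1 q), Finset.prod_mul_distrib]
    congr 1
    rw [Finset.prod_eq_single (a, E)]
    · simp
    · rintro ⟨b, e⟩ - hne
      have : ¬ (a = b ∧ E = e) := by
        rintro ⟨rfl, rfl⟩
        exact hne rfl
      change β b e ^ (if a = b ∧ E = e then 1 else 0) = 1
      rw [if_neg this, pow_zero]
    · simp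

/-- A word-value theorem for an abelian subgroup and a level structure given by
an elementary abelian group. -/
theorem elem_top_meas [Finite G] (p : ℕ) [hp : Fact p.Prime] [Module (ZMod p) V]
    (A : Subgroup G) (hA : ∀ a ∈ A, ∀ b ∈ A, a * b = b * a)
    (φ : S → G) (τ : S → V) (tt : V → G) (h0 : tt 0 = 1)
    (hmem : ∀ a E, tt E * φ a * (tt (E + τ a))⁻¹ ∈ A) :
    Meas (fun w : List S => (w.map φ).prod) := by
  classical
  let _ : CommGroup A := { (inferInstance : Group A) with
    mul_comm := fun a b => Subtype.ext (hA a.1 a.2 b.1 b.2) }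
  let β : S → V → A := fun a E => ⟨_, hmem a E⟩
  have hβ : ∀ a E, A.subtype (β a E) * tt (E + τ a) = tt E * φ a := by
    intro a E
    simp [β]
  set n := Nat.card A with hn
  have : NeZero n := ⟨by
    have : 0 < Nat.card A := Nat.card_pos
    omega⟩
  have hsig : Meas (fun w : List S => ((fun (q : S × V) => ((cntV τ q.1 q.2 0 w : ℕ) : ZMod n)),
      tsumV τ w)) := by
    apply Meas.prod
    · apply Meas.pi
      intro q
      exact cntV_meas τ p q.1 q.2 0 n
    · exact tsumV_meas τ p
  refine hsig.of_factor ?_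
  intro w w' hw
  simp only [Prod.mk.injEq, funext_iff] at hw
  obtain ⟨h1, h2⟩ := hw
  have hf := word_formula_V A.subtype τ φ tt β hβ w 0
  have hf' := word_formula_V A.subtype τ φ tt β hβ w' 0
  rw [h0, one_mul] at hf hf'
  rw [hf, hf', h2]
  congr 2
  apply Finset.prod_congr rfl
  intro q _
  have h3 := h1 q
  rw [ZMod.natCast_eq_natCast_iff'] at h3
  rw [← pow_mod_natCard, h3, pow_mod_natCard]

end GroupElem

end Vale.Agent.Lib.P329
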