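import Vale.Agent.Lib.P329.UnitLevel

/-! Sums over the occurrences of a letter of functions of the counts of letters before it. -/

namespace Vale.Agent.Lib.P329

set_option linter.unusedSectionVars false

section CntU

variable {S : Type} [DecidableEq S] (τ : S → Bool) {m : ℕ} [NeZero m]

/-- The number of occurrences of `x` read at the unit level `g`. -/
def cntU (x : S) (g : ZMod m) : ZMod m → List S → ℕ
  | _, [] => 0
  | e, a :: w => (if a = x ∧ e = g then 1 else 0) + cntU x g (ustep τ e a) w

@[simp] lemma cntU_nil (x : S) (g e : ZMod m) : cntU τ x g e [] = 0 := rfl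
@[simp] lemma cntU_cons (x : S) (g e : ZMod m) (a : S) (w : List S) :
    cntU τ x g e (a :: w) = (if a = x ∧ e = g then 1 else 0) + cntU τ x g (ustep τ e a) w := rfl

/-- The identity between the counts and two walks. -/
lemma unit_identity (ρ : ZMod m) (x : S) (hx : τ x = false) (c : ZMod m) (w : List S) :
    netC (ustep τ) (udisp τ ρ (fun a => if a = x then 1 else 0)) c w
      - netC (ustep τ) (udisp τ ρ (fun _ => 0)) c w = (cntU τ x ρ c w : ℤ) := by
  induction w generalizing c with
  | nil => simp
  | cons a w ih =>
    simp only [netC_cons, cntU_cons]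
    have h0 := ih (ustep τ c a)
    push_cast
    have h1 : udisp τ ρ (fun a => if a = x then 1 else 0) c a - udisp τ ρ (fun _ => 0) c a
        = (if a = x ∧ c = ρ then 1 else 0) := by
      unfold udisp
      by_cases h2 : τ a
      · have h4 : a ≠ x := by
          rintro rfl
          rw [hx] at h2
          exact absurd h2 (by simp)
        simp [h2, h4]
      · by_cases h3 : c = ρ
        · simp [h2, h3]
        · simp [h2, h3]
    linarith

variable [Finite S]

/-- The counts at a unit level of a letter not taking part in the walk are measurable. -/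
theorem cntU_meas (x : S) (hx : τ x = false) (g e : ZMod m) (n : ℕ) [NeZero n] :
    Meas (fun w : List S => ((cntU τ x g e w : ℕ) : ZMod n)) := by
  have h1 := unit_meas τ g (fun a => if a = x then 1 else 0) n
    (by intro a; split <;> simp) (by intro a; split <;> simp) e
  have h2 := unit_meas τ g (fun _ => 0) n (by simp) (by simp) e
  refine (h1.prod h2).of_factor ?_
  intro w w' hw
  simp only [Prod.mk.injEq] at hw
  obtain ⟨⟨-, h3⟩, -, h4⟩ := hw
  have h5 := unit_identity τ g x hx e w
  have h6 := unit_identity τ g x hx e w'
  have h7 : ((cntU τ x g e w : ℕ) : ZMod n) = ((cntU τ x g e w : ℤ) : ZMod n) := by simp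
  have h8 : ((cntU τ x g e w' : ℕ) : ZMod n) = ((cntU τ x g e w' : ℤ) : ZMod n) := by simp
  rw [h7, h8, ← h5, ← h6]
  push_cast
  rw [h3, h4]

end CntU

section Occ

variable {S : Type} [DecidableEq S]

/-- Add one occurrence of the letter `a` to a count vector. -/
def bump (e : S → ℕ) (a : S) : S → ℕ := fun b => e b + if b = a then 1 else 0

/-- The sum, over the occurrences of `x`, of the values of `g` at the count vector of the letters
before that occurrence. -/
def occSum (x : S) (g : (S → ℕ) → ℕ) : (S → ℕ) → List S → ℕ
  | _, [] => 0
  | e, a :: w => (if a = x then g e else 0) + occSum x g (bump e a) w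

@[simp] lemma occSum_nil (x : S) (g : (S → ℕ) → ℕ) (e : S → ℕ) : occSum x g e [] = 0 := rfl
@[simp] lemma occSum_cons (x : S) (g : (S → ℕ) → ℕ) (e : S → ℕ) (a : S) (w : List S) :
    occSum x g e (a :: w) = (if a = x then g e else 0) + occSum x g (bump e a) w := rfl

lemma occSum_add (x : S) (g g' : (S → ℕ) → ℕ) (e : S → ℕ) (w : List S) :
    occSum x (fun n => g n + g' n) e w = occSum x g e w + occSum x g' e w := by
  induction w generalizing e with
  | nil => simp
  | cons a w ih =>
    simp only [occSum_cons, ih]
    split <;> omega

variable (τ : S → Bool) {m : ℕ} [NeZero m]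

/-- A sum over occurrences of a periodic function of a unit level, in terms of the counts. -/
lemma occSum_level {N : ℕ} (x : S) (L : (S → ℕ) → ℕ)
    (hL : ∀ e a, L (bump e a) = L e + if τ a then 1 else 0)
    (G : ℕ → ℕ) (F : ZMod m → ZMod N) (hF : ∀ k : ℕ, ((G k : ℕ) : ZMod N) = F (k : ZMod m))
    (e : S → ℕ) (w : List S) :
    ((occSum x (fun n => G (L n)) e w : ℕ) : ZMod N) =
      ∑ g : ZMod m, F g * ((cntU τ x g (L e : ZMod m) w : ℕ) : ZMod N) := by
  induction w generalizing e with
  | nil => simp
  | cons a w ih =>
    simp only [occSum_cons, cntU_cons]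
    push_cast
    rw [ih (bump e a)]
    have hs : ((L (bump e a) : ℕ) : ZMod m) = ustep τ (L e : ZMod m) a := by
      rw [hL]
      unfold ustep
      by_cases h : τ a
      · simp [h]
      · simp [h]
    rw [hs]
    simp only [mul_add, Finset.sum_add_distrib]
    congr 1
    by_cases hax : a = x
    · subst hax
      simp only [if_true, true_and]
      rw [Finset.sum_eq_single (L e : ZMod m)]
      · simp [hF]
      · intro g _ hg
        have : ¬ (L e : ZMod m) = g := fun h => hg h.symm
        simp [this]
      · simp
    · simp [hax]

/-- Sums over occurrences of periodic functions of a unit level are measurable. -/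
theorem occSum_level_meas [Finite S] {N : ℕ} [NeZero N] (x : S) (hx : τ x = false)
    (L : (S → ℕ) → ℕ) (hL : ∀ e a, L (bump e a) = L e + if τ a then 1 else 0)
    (G : ℕ → ℕ) (F : ZMod m → ZMod N) (hF : ∀ k : ℕ, ((G k : ℕ) : ZMod N) = F (k : ZMod m))
    (e : S → ℕ) :
    Meas (fun w : List S => ((occSum x (fun n => G (L n)) e w : ℕ) : ZMod N)) := by
  have h1 : Meas (fun w : List S => fun g : ZMod m =>
      ((cntU τ x g (L e : ZMod m) w : ℕ) : ZMod N)) :=
    Meas.pi (fun g => cntU_meas τ x hx g _ N)
  refine h1.of_factor ?_
  intro w w' hw
  rw [occSum_level τ x L hL G F hF e w, occSum_level τ x L hL G F hF e w']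
  apply Finset.sum_congr rfl
  intro g _
  rw [congrFun hw g]

end Occ

section Choose

lemma add_choose_two (a b : ℕ) :
    (a + b).choose 2 = a.choose 2 + b.choose 2 + a * b := by
  induction b with
  | zero => simp
  | succ b ih =>
    have h1 : (a + (b + 1)).choose 2 = (a + b).choose 1 + (a + b).choose 2 :=
      Nat.choose_succ_succ (a + b) 1
    have h2 : (b + 1).choose 2 = b.choose 1 + b.choose 2 := Nat.choose_succ_succ b 1
    rw [h1, h2, ih, Nat.choose_one_right, Nat.choose_one_right]
    ring

lemma choose_two_periodic (N r q : ℕ) :
    (((r + 2 * N * q).choose 2 : ℕ) : ZMod N) = ((r.choose 2 : ℕ) : ZMod N) := by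
  induction q with
  | zero => simp
  | succ q ih =>
    have h1 : r + 2 * N * (q + 1) = (r + 2 * N * q) + 2 * N := by ring
    rw [h1, add_choose_two]
    push_cast
    have h2 : ((2 * N).choose 2 : ZMod N) = 0 := by
      rw [Nat.choose_two_right]
      have h3 : 2 * N * (2 * N - 1) / 2 = N * (2 * N - 1) := by
        rw [mul_assoc, Nat.mul_div_cancel_left _ (by norm_num)]
      rw [h3]
      simp
    have h4 : ((N : ℕ) : ZMod N) = 0 := ZMod.natCast_self N
    rw [ih, h2, h4]
    simp

lemma choose_two_zmod (N : ℕ) [NeZero N] (k : ℕ) :
    ((k.choose 2 : ℕ) : ZMod N) = ((((k : ZMod (2 * N)).val).choose 2 : ℕ) : ZMod N) := by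
  have hpos : NeZero (2 * N) := ⟨by have := NeZero.ne N; omega⟩
  rw [ZMod.val_natCast]
  conv_lhs => rw [← Nat.mod_add_div k (2 * N)]
  exact choose_two_periodic N _ _

end Choose

section Moments

variable {S : Type} [DecidableEq S] [Finite S]

/-- The count of a letter is measurable. -/
theorem count_meas (x : S) (n : ℕ) [NeZero n] :
    Meas (fun w : List S => ((w.count x : ℕ) : ZMod n)) := by
  have h1 := cnt_meas (fun _ : S => false) x false n
  have h2 : ∀ w : List S, cntF (fun _ => false) x false w = w.count x := by
    intro w
    induction w with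
    | nil => simp
    | cons a w ih =>
      simp only [cntF_cons, Bool.false_bne, List.count_cons, and_true, beq_iff_eq]
      rw [ih]
      ring
  simpa only [h2] using h1

variable (N : ℕ) [NeZero N]

lemma bump_self (e : S → ℕ) (a : S) : bump e a a = e a + 1 := by simp [bump]
lemma bump_ne (e : S → ℕ) {a b : S} (h : b ≠ a) : bump e a b = e b := by simp [bump, h]

/-- The linear moment. -/
theorem meas_lin (x b : S) (h : x ≠ b) (e : S → ℕ) :
    Meas (fun w : List S => ((occSum x (fun n => n b) e w : ℕ) : ZMod N)) := by
  refine occSum_level_meas (m := N) (fun a => decide (a = b)) x (by simpa using h)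
    (fun n => n b) ?_ id (fun g => g) (fun k => rfl) e
  intro e a
  by_cases hab : a = b
  · subst hab
    simp [bump_self]
  · have : b ≠ a := fun h => hab h.symm
    simp [bump_ne e this, hab]

/-- The moment of the binomial coefficient of a count. -/
theorem meas_tri (x b : S) (h : x ≠ b) (e : S → ℕ) :
    Meas (fun w : List S => ((occSum x (fun n => (n b).choose 2) e w : ℕ) : ZMod N)) := by
  have hpos : NeZero (2 * N) := ⟨by have := NeZero.ne N; omega⟩
  refine occSum_level_meas (m := 2 * N) (fun a => decide (a = b)) x (by simpa using h)
    (fun n => n b) ?_ (fun k => k.choose 2) (fun g => ((g.val.choose 2 : ℕ) : ZMod N))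
    (choose_two_zmod N) e
  intro e a
  by_cases hab : a = b
  · subst hab
    simp [bump_self]
  · have : b ≠ a := fun h => hab h.symm
    simp [bump_ne e this, hab]

/-- The mixed moment, for a letter different from both of the counted letters. -/
theorem meas_bil_of_ne (x b c : S) (hbc : b ≠ c) (hb : x ≠ b) (hc : x ≠ c) (e : S → ℕ) :
    Meas (fun w : List S => ((occSum x (fun n => n b * n c) e w : ℕ) : ZMod N)) := by
  have hpos : NeZero (2 * N) := ⟨by have := NeZero.ne N; omega⟩
  have h1 : Meas (fun w : List S =>
      ((occSum x (fun n => (n b + n c).choose 2) e w : ℕ) : ZMod N)) := by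
    refine occSum_level_meas (m := 2 * N) (fun a => decide (a = b ∨ a = c)) x (by simp [hb, hc])
      (fun n => n b + n c) ?_ (fun k => k.choose 2) (fun g => ((g.val.choose 2 : ℕ) : ZMod N))
      (choose_two_zmod N) e
    intro e a
    by_cases hab : a = b
    · subst hab
      have : c ≠ a := fun h => hbc h.symm
      simp [bump_self, bump_ne e this]
      ring
    · by_cases hac : a = c
      · subst hac
        have : b ≠ a := fun h => hab h.symm
        simp [bump_self, bump_ne e this, hab]
        ring
      · have h2 : b ≠ a := fun h => hab h.symm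
        have h3 : c ≠ a := fun h => hac h.symm
        simp [bump_ne e h2, bump_ne e h3, hab, hac]
  refine (h1.prod ((meas_tri N x b hb e).prod (meas_tri N x c hc e))).of_factor ?_
  intro w w' hw
  simp only [Prod.mk.injEq] at hw
  obtain ⟨h2, h3, h4⟩ := hw
  have key : ∀ w : List S, occSum x (fun n => (n b + n c).choose 2) e w =
      occSum x (fun n => (n b).choose 2) e w + occSum x (fun n => (n c).choose 2) e w
        + occSum x (fun n => n b * n c) e w := by
    intro w
    rw [← occSum_add, ← occSum_add]
    congr 1
    funext n
    exact add_choose_two _ _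
  rw [key w, key w'] at h2
  push_cast at h2
  rw [h3, h4] at h2
  exact add_left_cancel h2

/-- The identity for the mixed moment when the letter is one of the counted ones. -/
lemma occSum_self_mixed (x c : S) (hxc : x ≠ c) (e : S → ℕ) (w : List S) :
    occSum x (fun n => n x * n c) e w + occSum c (fun n => (n x).choose 2) e w
      + (e x).choose 2 * e c = (e x + w.count x).choose 2 * (e c + w.count c) := by
  induction w generalizing e with
  | nil => simp
  | cons a w ih =>
    simp only [occSum_cons, List.count_cons, beq_iff_eq]
    have h0 := ih (bump e a)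
    by_cases hax : a = x
    · subst hax
      have h1 : bump e a a = e a + 1 := bump_self e a
      have h2 : bump e a c = e c := bump_ne e (fun h => hxc h.symm)
      rw [h1, h2] at h0
      have h3 : (e a + 1).choose 2 = e a + (e a).choose 2 := by
        have := Nat.choose_succ_succ (e a) 1
        rw [Nat.choose_one_right] at this
        exact this
      rw [if_pos rfl, if_neg hxc, if_pos rfl, if_neg hxc, add_zero]
      rw [show e a + (List.count a w + 1) = e a + 1 + List.count a w by ring, ← h0, h3]
      ring
    · by_cases hac : a = c
      · subst hac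
        have h1 : bump e a a = e a + 1 := bump_self e a
        have h2 : bump e a x = e x := bump_ne e (fun h => hax h.symm)
        rw [h1, h2] at h0
        rw [if_neg hax, if_pos rfl, if_neg hax, if_pos rfl, add_zero]
        rw [show e a + (List.count a w + 1) = e a + 1 + List.count a w by ring, ← h0]
        ring
      · have h2 : bump e a x = e x := bump_ne e (fun h => hax h.symm)
        have h3 : bump e a c = e c := bump_ne e (fun h => hac h.symm)
        rw [h2, h3] at h0
        rw [if_neg hax, if_neg hac, if_neg hax, if_neg hac, add_zero, add_zero, zero_add, zero_add]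
        exact h0

/-- The mixed moment of two different letters, at most one of which is the letter `x`,
with the count vector starting from zero. -/
theorem meas_bil (x b c : S) (hbc : b ≠ c) (hne : x ≠ b ∨ x ≠ c) :
    Meas (fun w : List S => ((occSum x (fun n => n b * n c) (fun _ => 0) w : ℕ) : ZMod N)) := by
  have hpos : NeZero (2 * N) := ⟨by have := NeZero.ne N; omega⟩
  have self_case : ∀ c : S, x ≠ c → Meas (fun w : List S =>
      ((occSum x (fun n => n x * n c) (fun _ => 0) w : ℕ) : ZMod N)) := by
    intro c hxc
    have h1 := meas_tri N c x (fun h => hxc h.symm) (fun _ => 0)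
    have h2 := count_meas x (2 * N)
    have h3 := count_meas c N
    refine (h1.prod (h2.prod h3)).of_factor ?_
    intro w w' hw
    simp only [Prod.mk.injEq] at hw
    obtain ⟨h4, h5, h6⟩ := hw
    have h7 := occSum_self_mixed x c hxc (fun _ => 0) w
    have h8 := occSum_self_mixed x c hxc (fun _ => 0) w'
    simp only [zero_add, Nat.choose_zero_succ, mul_zero, add_zero] at h7 h8
    have h9 := congrArg (fun k : ℕ => (k : ZMod N)) h7
    have h10 := congrArg (fun k : ℕ => (k : ZMod N)) h8
    simp only [Nat.cast_add, Nat.cast_mul] at h9 h10
    have h11 : (((w.count x).choose 2 : ℕ) : ZMod N) = (((w'.count x).choose 2 : ℕ) : ZMod N) := by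
      rw [choose_two_zmod N (w.count x), choose_two_zmod N (w'.count x), h5]
    rw [h11, h6, ← h10, h4] at h9
    exact add_right_cancel h9
  by_cases hb : x = b
  · subst hb
    exact self_case c (hne.resolve_left (by simp))
  · by_cases hc : x = c
    · subst hc
      have h1 := self_case b hb
      simpa only [mul_comm] using h1
    · exact meas_bil_of_ne N x b c hbc hb hc _

end Moments

end Vale.Agent.Lib.P329
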