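import Vale.Agent.Lib.P329.PrimeTop

/-! Groups having an abelian normal subgroup of prime index. -/

namespace Vale.Agent.Lib.P329

section

variable {S G : Type} [DecidableEq S] [Fintype S] [Group G] [Finite G]

/-- Words over a group with an abelian normal subgroup of prime index. -/
theorem prime_index_meas (A : Subgroup G) [A.Normal] (hA : ∀ a ∈ A, ∀ b ∈ A, a * b = b * a)
    (p : ℕ) [hp : Fact p.Prime] (hi : A.index = p) (φ : S → G) :
    Meas (fun w : List S => (w.map φ).prod) := by
  classical
  have hcard : Nat.card (G ⧸ A) = p := hi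
  have hne : A ≠ ⊤ := by
    rintro rfl
    rw [Subgroup.index_top] at hi
    exact hp.out.one_lt.ne hi
  obtain ⟨t, ht⟩ : ∃ t, t ∉ A := by
    by_contra h
    push Not at h
    exact hne ((Subgroup.eq_top_iff' A).2 h)
  let π : G →* G ⧸ A := QuotientGroup.mk' A
  have hq : π t ≠ 1 := by
    intro h
    exact ht ((QuotientGroup.eq_one_iff t).1 h)
  have : Finite (G ⧸ A) := inferInstance
  have hpow : ∀ y : G ⧸ A, ∃ i : ℕ, π t ^ i = y := by
    intro y
    have := mem_powers_of_prime_card hcard (g := π t) (g' := y) hq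
    obtain ⟨i, hi⟩ := this
    exact ⟨i, hi⟩
  choose ind hind using hpow
  have hord : π t ^ p = 1 := by
    rw [← hcard]
    exact pow_card_eq_one'
  let τ : S → ZMod p := fun a => (ind (π (φ a)) : ZMod p)
  let tt : ZMod p → G := fun E => t ^ E.val
  refine prime_top_meas A hA φ τ tt (by simp [tt]) ?_
  intro a E
  rw [← QuotientGroup.eq_one_iff]
  change π (tt E * φ a * (tt (E + τ a))⁻¹) = 1
  rw [map_mul, map_mul, map_inv, mul_inv_eq_one]
  simp only [tt, map_pow]
  have h1 : (E + τ a).val = (E.val + ind (π (φ a))) % p := by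
    rw [ZMod.val_add]
    simp only [τ, ZMod.val_natCast]
    rw [Nat.add_mod_mod]
  rw [h1]
  conv_lhs => rw [← hind (π (φ a))]
  rw [← pow_add]
  conv_lhs => rw [← Nat.mod_add_div (E.val + ind (π (φ a))) p]
  rw [pow_add, pow_mul, hord, one_pow, mul_one]

/-- Words over a group with an abelian normal subgroup of index one or a prime. -/
theorem index_meas (A : Subgroup G) [A.Normal] (hA : ∀ a ∈ A, ∀ b ∈ A, a * b = b * a)
    (hi : A.index = 1 ∨ A.index.Prime) (φ : S → G) :
    Meas (fun w : List S => (w.map φ).prod) := by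
  rcases hi with hi | hi
  · have : Fact (Nat.Prime 2) := ⟨Nat.prime_two⟩
    have htop : A = ⊤ := Subgroup.index_eq_one.1 hi
    refine prime_top_meas (p := 2) A hA φ (fun _ => 0) (fun _ => 1) rfl ?_
    intro a E
    rw [htop]
    trivial
  · have : Fact A.index.Prime := ⟨hi⟩
    exact prime_index_meas A hA A.index rfl φ

end

section Product

variable {S : Type} [Fintype S] {ι : Type} [Finite ι] {H : ι → Type} [∀ i, Group (H i)]
  [∀ i, Finite (H i)]

lemma Meas.dpi {g : ∀ i, List S → H i} (hg : ∀ i, Meas (g i)) :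
    Meas (fun w i => g i w) := by
  intro f
  convert HS.iInter (fun i => hg i (f i)) using 1
  ext w
  simp [funext_iff]

lemma list_prod_apply (φ : S → ∀ i, H i) (w : List S) (i : ι) :
    (w.map φ).prod i = (w.map (fun a => φ a i)).prod := by
  induction w with
  | nil => rfl
  | cons a w ih => simp [ih]

/-- The theorem for finite products of such groups. -/
theorem product_fibre (A : ∀ i, Subgroup (H i)) [∀ i, (A i).Normal]
    (hA : ∀ i, ∀ a ∈ A i, ∀ b ∈ A i, a * b = b * a)
    (hi : ∀ i, (A i).index = 1 ∨ (A i).index.Prime)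
    (φ : S → ∀ i, H i) (P : Set (∀ i, H i)) :
    HS 1 {w : List S | (w.map φ).prod ∈ P} := by
  classical
  have h1 : Meas (fun w : List S => (w.map φ).prod) := by
    have h2 : Meas (fun w : List S => fun i => (w.map (fun a => φ a i)).prod) :=
      Meas.dpi (fun i => index_meas (A i) (hA i) (hi i) (fun a => φ a i))
    convert h2 using 1
    funext w
    funext i
    exact list_prod_apply φ w i
  exact h1.set P

end Product

end Vale.Agent.Lib.P329
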