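import Vale.Agent.Lib.P329.Block

/-! Counting letters at a given level of a cyclic group of prime order. -/

namespace Vale.Agent.Lib.P329

set_option linter.unusedSectionVars false

section Cnt

variable {S : Type} [DecidableEq S] {p : ℕ} [Fact p.Prime] (τ : S → ZMod p)

/-- The number of occurrences of `x` read at level `g`, the word being read from level `e`. -/
def cnt (x : S) (g : ZMod p) : ZMod p → List S → ℕ
  | _, [] => 0
  | e, a :: w => (if a = x ∧ e = g then 1 else 0) + cnt x g (e + τ a) w

@[simp] lemma cnt_nil (x : S) (g e : ZMod p) : cnt τ x g e [] = 0 := rfl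
@[simp] lemma cnt_cons (x : S) (g e : ZMod p) (a : S) (w : List S) :
    cnt τ x g e (a :: w) = (if a = x ∧ e = g then 1 else 0) + cnt τ x g (e + τ a) w := rfl

/-- The identity for a letter that does not change the level. -/
lemma nonflip_identity (ρ : ZMod p) (x : S) (hx : τ x = 0) (c : ZMod p × Bool) (w : List S) :
    netC (bstep τ ρ x) (bdisp τ ρ x (fun _ _ => 1) (fun a => if a = x then 1 else 0)) c w
      - netC (bstep τ ρ x) (bdisp τ ρ x (fun _ _ => 1) (fun _ => 0)) c w
      = (cnt τ x ρ c.1 w : ℤ) := by
  induction w generalizing c with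
  | nil => simp
  | cons a w ih =>
    simp only [netC_cons, cnt_cons]
    have h0 := ih (bstep τ ρ x c a)
    rw [bstep_fst] at h0
    push_cast
    rw [← h0]
    have h1 : bdisp τ ρ x (fun _ _ => 1) (fun a => if a = x then 1 else 0) c a
        - bdisp τ ρ x (fun _ _ => 1) (fun _ => 0) c a = (if a = x ∧ c.1 = ρ then 1 else 0) := by
      unfold bdisp
      by_cases h2 : τ a = 0
      · by_cases h3 : c.1 = ρ
        · simp [h2, h3]
        · simp [h2, h3]
      · have h4 : a ≠ x := by
          rintro rfl
          exact h2 hx
        simp [h2, h4]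
    linarith

/-- The weight recording the pair (bit, arrival letter), first variant. -/
def alphaM (b t : Bool) : ℤ := if b = false ∧ t = true then 0 else 1

/-- The weight recording the pair (bit, arrival letter), second variant. -/
def alphaP (b t : Bool) : ℤ := if b = true ∧ t = false then 0 else 1

/-- The potential function of the control. -/
def pot (ρ : ZMod p) (c : ZMod p × Bool) : ℤ := if c.1 ≠ ρ ∧ c.2 = true then 1 else 0

/-- The identity for a letter changing the level. -/
lemma flip_identity (ρ : ZMod p) (x : S) (hx : τ x ≠ 0) (c : ZMod p × Bool) (w : List S) :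
    netC (bstep τ ρ x) (bdisp τ ρ x alphaM (fun _ => 0)) c w
      - netC (bstep τ ρ x) (bdisp τ ρ x alphaP (fun _ => 0)) c w
      + pot ρ (run (bstep τ ρ x) c w) - pot ρ c
      = (cnt τ x ρ c.1 w : ℤ) - (cnt τ x (ρ - τ x) c.1 w : ℤ) := by
  induction w generalizing c with
  | nil => simp
  | cons a w ih =>
    simp only [netC_cons, cnt_cons, run_cons]
    have h0 := ih (bstep τ ρ x c a)
    rw [bstep_fst] at h0
    push_cast
    have h1 : bdisp τ ρ x alphaM (fun _ => 0) c a - bdisp τ ρ x alphaP (fun _ => 0) c a
        + pot ρ (bstep τ ρ x c a) - pot ρ c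
        = (if a = x ∧ c.1 = ρ then 1 else 0) - (if a = x ∧ c.1 = ρ - τ x then 1 else 0) := by
      obtain ⟨e, b⟩ := c
      by_cases h2 : τ a = 0
      · have h4 : a ≠ x := by
          rintro rfl
          exact hx h2
        by_cases h3 : e = ρ
        · simp [bdisp, bstep, pot, h2, h3, h4]
        · simp [bdisp, bstep, pot, h2, h3, h4]
      · by_cases h3 : e = ρ
        · subst h3
          have h5 : ¬ (e = e - τ x) := by
            intro h
            apply hx
            have : e - (e - τ x) = 0 := by rw [← h]; ring
            simpa using this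
          have h6 : e + τ a ≠ e := by
            intro h
            apply h2
            have : e + τ a - e = 0 := by rw [h]; ring
            simpa using this
          by_cases h4 : a = x
          · subst h4
            simp [bdisp, bstep, pot, h2, h5, h6]
          · simp [bdisp, bstep, pot, h2, h4, h6]
        · by_cases h5 : e + τ a = ρ
          · have h6 : e = ρ - τ a := by rw [← h5]; ring
            by_cases h4 : a = x
            · subst h4
              cases b <;> simp [bdisp, bstep, pot, h2, h3, h5, h6, alphaM, alphaP]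
            · cases b <;> simp [bdisp, bstep, pot, h2, h3, h5, h4, alphaM, alphaP]
          · by_cases h4 : a = x
            · subst h4
              have h6 : ¬ e = ρ - τ a := by
                intro h
                apply h5
                rw [h]
                ring
              cases b <;> simp [bdisp, bstep, pot, h2, h3, h5, h6]
            · cases b <;> simp [bdisp, bstep, pot, h2, h3, h5, h4]
    linarith

/-- Total count over all the levels. -/
lemma sum_cnt (x : S) (e : ZMod p) (w : List S) :
    ∑ g : ZMod p, cnt τ x g e w = cntF (fun _ => false) x false w := by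
  induction w generalizing e with
  | nil => simp
  | cons a w ih =>
    simp only [cnt_cons, cntF_cons, Finset.sum_add_distrib]
    rw [ih (e + τ a)]
    congr 1
    by_cases h : a = x
    · simp [h]
    · simp [h]

lemma shift_dvd {T : ZMod p} (hT : T ≠ 0) (n : ℤ) (f : ZMod p → ℤ)
    (h1 : ∀ g, (p : ℤ) * n ∣ f g - f (g - T)) (h2 : (p : ℤ) * n ∣ ∑ g : ZMod p, f g) (g₀ : ZMod p) :
    n ∣ f g₀ := by
  have h3 : ∀ i : ℕ, (p : ℤ) * n ∣ f (g₀ + i • T) - f g₀ := by
    intro i
    induction i with
    | zero => simp
    | succ i ih =>
      have h4 := h1 (g₀ + (i + 1) • T)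
      have h5 : g₀ + (i + 1) • T - T = g₀ + i • T := by
        rw [succ_nsmul]
        ring
      rw [h5] at h4
      have h6 := dvd_add h4 ih
      simpa using h6
  have h4 : ∀ g, (p : ℤ) * n ∣ f g - f g₀ := by
    intro g
    obtain ⟨t, ht⟩ := exists_level g₀ g T hT
    rw [← ht]
    exact h3 t
  have h5 : (p : ℤ) * n ∣ ∑ g : ZMod p, (f g - f g₀) := Finset.dvd_sum (fun g _ => h4 g)
  rw [Finset.sum_sub_distrib, Finset.sum_const, Finset.card_univ, ZMod.card] at h5
  have h6 := (dvd_sub_right h2).1 h5
  rw [nsmul_eq_mul] at h6
  have hp : (p : ℤ) ≠ 0 := by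
    have := (Fact.out : p.Prime).ne_zero
    exact_mod_cast this
  exact (mul_dvd_mul_iff_left hp).1 h6

variable [Finite S]

/-- The counts at a level are measurable modulo any integer. -/
theorem cnt_meas_prime (x : S) (g e : ZMod p) (n : ℕ) [NeZero n] :
    Meas (fun w : List S => ((cnt τ x g e w : ℕ) : ZMod n)) := by
  by_cases hx : τ x = 0
  · -- a letter that does not change the level
    have h1 := block_meas τ g x (fun _ _ => 1) (fun a => if a = x then 1 else 0) n
      (by simp) (by simp) (by intro a; split <;> simp) (by intro a; split <;> simp)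
      false (by simp) (e, false)
    have h2 := block_meas τ g x (fun _ _ => 1) (fun _ => 0) n
      (by simp) (by simp) (by simp) (by simp) false (by simp) (e, false)
    refine (h1.prod h2).of_factor ?_
    intro w w' hw
    simp only [Prod.mk.injEq] at hw
    obtain ⟨⟨-, h3⟩, -, h4⟩ := hw
    have h5 := nonflip_identity τ g x hx (e, false) w
    have h6 := nonflip_identity τ g x hx (e, false) w'
    simp only at h5 h6
    have h7 : ((cnt τ x g e w : ℕ) : ZMod n) = ((cnt τ x g e w : ℤ) : ZMod n) := by simp
    have h8 : ((cnt τ x g e w' : ℕ) : ZMod n) = ((cnt τ x g e w' : ℤ) : ZMod n) := by simp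
    rw [h7, h8, ← h5, ← h6]
    push_cast
    rw [h3, h4]
  · -- a letter changing the level
    have hpos : NeZero (p * n) := ⟨by
      have := (Fact.out : p.Prime).ne_zero
      have := NeZero.ne n
      simp [*]⟩
    have hM : ∀ g : ZMod p, Meas (fun w : List S => (run (bstep τ g x) (e, false) w,
        ((netC (bstep τ g x) (bdisp τ g x alphaM (fun _ => 0)) (e, false) w : ℤ) : ZMod (p * n)))) :=
      fun g => block_meas τ g x alphaM (fun _ => 0) (p * n)
        (by intro b t; unfold alphaM; split <;> simp)
        (by intro b t; unfold alphaM; split <;> simp) (by simp) (by simp) false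
        (by intro b t; unfold alphaM; cases b <;> cases t <;> simp) (e, false)
    have hP : ∀ g : ZMod p, Meas (fun w : List S => (run (bstep τ g x) (e, false) w,
        ((netC (bstep τ g x) (bdisp τ g x alphaP (fun _ => 0)) (e, false) w : ℤ) : ZMod (p * n)))) :=
      fun g => block_meas τ g x alphaP (fun _ => 0) (p * n)
        (by intro b t; unfold alphaP; split <;> simp)
        (by intro b t; unfold alphaP; split <;> simp) (by simp) (by simp) true
        (by intro b t; unfold alphaP; cases b <;> cases t <;> simp) (e, false)
    have hC : Meas (fun w : List S => ((cntF (fun _ => false) x false w : ℕ) : ZMod (p * n))) :=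
      cnt_meas (fun _ => false) x false (p * n)
    refine ((Meas.pi hM).prod ((Meas.pi hP).prod hC)).of_factor ?_
    intro w w' hw
    simp only [Prod.mk.injEq, funext_iff] at hw
    obtain ⟨h1, h2, h3⟩ := hw
    have hdvd : (n : ℤ) ∣ (cnt τ x g e w' : ℤ) - (cnt τ x g e w : ℤ) := by
      apply shift_dvd hx (n : ℤ) (fun g => (cnt τ x g e w' : ℤ) - (cnt τ x g e w : ℤ))
      · intro g'
        have h4 := flip_identity τ g' x hx (e, false) w
        have h5 := flip_identity τ g' x hx (e, false) w'
        simp only at h4 h5
        obtain ⟨h6, h7⟩ := h1 g'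
        obtain ⟨-, h8⟩ := h2 g'
        rw [ZMod.intCast_eq_intCast_iff_dvd_sub] at h7 h8
        push_cast at h7 h8
        have h9 := dvd_sub h7 h8
        have h10 : (cnt τ x g' e w' : ℤ) - (cnt τ x g' e w : ℤ)
            - ((cnt τ x (g' - τ x) e w' : ℤ) - (cnt τ x (g' - τ x) e w : ℤ))
            = netC (bstep τ g' x) (bdisp τ g' x alphaM fun _ => 0) (e, false) w' -
                netC (bstep τ g' x) (bdisp τ g' x alphaM fun _ => 0) (e, false) w -
              (netC (bstep τ g' x) (bdisp τ g' x alphaP fun _ => 0) (e, false) w' -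
                netC (bstep τ g' x) (bdisp τ g' x alphaP fun _ => 0) (e, false) w) := by
          rw [h6] at h4
          linarith
        rw [h10]
        exact h9
      · have h4 : ∑ g : ZMod p, ((cnt τ x g e w' : ℤ) - (cnt τ x g e w : ℤ))
            = (cntF (fun _ => false) x false w' : ℤ) - (cntF (fun _ => false) x false w : ℤ) := by
          rw [Finset.sum_sub_distrib, ← sum_cnt τ x e w', ← sum_cnt τ x e w]
          push_cast
          rfl
        rw [h4]
        have h5 : (((cntF (fun _ => false) x false w : ℕ) : ℤ) : ZMod (p * n))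
            = ((cntF (fun _ => false) x false w' : ℕ) : ℤ) := by
          push_cast
          exact h3
        rw [ZMod.intCast_eq_intCast_iff_dvd_sub] at h5
        push_cast at h5
        exact h5
    have h9 := (ZMod.intCast_eq_intCast_iff_dvd_sub (cnt τ x g e w : ℤ) (cnt τ x g e w' : ℤ) n).2 hdvd
    exact_mod_cast h9

lemma tsum_meas : Meas (tsum τ) := by
  rcases isEmpty_or_nonempty S with h | ⟨⟨x⟩⟩
  · intro b
    by_cases hb : (0 : ZMod p) = b
    · convert (HS.univ : HS 1 (Set.univ : Set (List S))) using 1
      ext w
      cases w with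
      | nil => simp [hb]
      | cons a w => exact isEmptyElim a
    · convert (HS.empty : HS 1 (∅ : Set (List S))) using 1
      ext w
      cases w with
      | nil => simp [hb]
      | cons a w => exact isEmptyElim a
  · have h1 := block_meas τ 0 x (fun _ _ => 1) (fun _ => 0) 1
      (by simp) (by simp) (by simp) (by simp) false (by simp) (0, false)
    refine h1.of_factor ?_
    intro w w' hw
    simp only [Prod.mk.injEq] at hw
    have h2 := run_fst τ 0 x (0, false) w
    have h3 := run_fst τ 0 x (0, false) w'
    rw [hw.1] at h2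
    simp only [zero_add] at h2 h3
    rw [← h2, h3]

end Cnt

section GroupTop

variable {S G : Type} [DecidableEq S] [Fintype S] [Group G] {p : ℕ} [Fact p.Prime]

/-- The formula for the value of a word. -/
lemma word_formula_prime {B : Type} [CommGroup B] (ι : B →* G) (τ : S → ZMod p) (φ : S → G)
    (tt : ZMod p → G) (β : S → ZMod p → B)
    (hβ : ∀ a E, ι (β a E) * tt (E + τ a) = tt E * φ a) (w : List S) (E : ZMod p) :
    tt E * (w.map φ).prod =
      ι (∏ q : S × ZMod p, β q.1 q.2 ^ (cnt τ q.1 q.2 E w)) * tt (E + tsum τ w) := by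
  induction w generalizing E with
  | nil => simp
  | cons a w ih =>
    simp only [List.map_cons, List.prod_cons, tsum_cons, cnt_cons]
    rw [← mul_assoc, ← hβ a E, mul_assoc, ih (E + τ a)]
    rw [← mul_assoc, ← map_mul, add_assoc]
    congr 2
    have h1 : ∀ q : S × ZMod p, β q.1 q.2 ^ ((if a = q.1 ∧ E = q.2 then 1 else 0) +
        cnt τ q.1 q.2 (E + τ a) w) =
        β q.1 q.2 ^ (if a = q.1 ∧ E = q.2 then 1 else 0) *
          β q.1 q.2 ^ (cnt τ q.1 q.2 (E + τ a) w) := fun q => pow_add _ _ _
    rw [Finset.prod_congr rfl (fun q _ => h1 q), Finset.prod_mul_distrib]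
    congr 1
    rw [Finset.prod_eq_single (a, E)]
    · simp
    · rintro ⟨b, e⟩ - hne
      have : ¬ (a = b ∧ E = e) := by
        rintro ⟨rfl, rfl⟩
        exact hne rfl
      change β b e ^ (if a = b ∧ E = e then 1 else 0) = 1
      rw [if_neg this, pow_zero]
    · simp

/-- A word-value theorem for an abelian subgroup and a cyclic level structure of prime order. -/
theorem prime_top_meas [Finite G] (A : Subgroup G) (hA : ∀ a ∈ A, ∀ b ∈ A, a * b = b * a)
    (φ : S → G) (τ : S → ZMod p) (tt : ZMod p → G) (h0 : tt 0 = 1)
    (hmem : ∀ a E, tt E * φ a * (tt (E + τ a))⁻¹ ∈ A) :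
    Meas (fun w : List S => (w.map φ).prod) := by
  classical
  let _ : CommGroup A := { (inferInstance : Group A) with
    mul_comm := fun a b => Subtype.ext (hA a.1 a.2 b.1 b.2) }
  let β : S → ZMod p → A := fun a E => ⟨_, hmem a E⟩
  have hβ : ∀ a E, A.subtype (β a E) * tt (E + τ a) = tt E * φ a := by
    intro a E
    simp [β]
  set n := Nat.card A with hn
  have : NeZero n := ⟨by
    have : 0 < Nat.card A := Nat.card_pos
    omega⟩
  have hsig : Meas (fun w : List S => ((fun (q : S × ZMod p) => ((cnt τ q.1 q.2 0 w : ℕ) : ZMod n)),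
      tsum τ w)) := by
    apply Meas.prod
    · apply Meas.pi
      intro q
      exact cnt_meas_prime τ q.1 q.2 0 n
    · exact tsum_meas τ
  refine hsig.of_factor ?_
  intro w w' hw
  simp only [Prod.mk.injEq, funext_iff] at hw
  obtain ⟨h1, h2⟩ := hw
  have hf := word_formula_prime A.subtype τ φ tt β hβ w 0
  have hf' := word_formula_prime A.subtype τ φ tt β hβ w' 0
  rw [h0, one_mul] at hf hf'
  rw [hf, hf', h2]
  congr 2
  apply Finset.prod_congr rfl
  intro q _
  have h3 := h1 q
  rw [ZMod.natCast_eq_natCast_iff'] at h3
  rw [← pow_mod_natCard, h3, pow_mod_natCard]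

end GroupTop

end Vale.Agent.Lib.P329
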