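import Vale.Agent.Lib.P329.ClassThree
import Vale.Agent.Lib.P329.ElemIndex

/-! Finite products of the groups handled so far. -/

namespace Vale.Agent.Lib.P329

open scoped commutatorElement

/-- A finite group of one of the two kinds handled: nilpotent of class at most three, or having an
abelian normal subgroup whose quotient is abelian of prime exponent. -/
def Handled (G : Type) [Group G] : Prop :=
  (∀ x y z w : G, ⁅⁅⁅x, y⁆, z⁆, w⁆ = 1) ∨
    ∃ (A : Subgroup G) (p : ℕ), A.Normal ∧ (∀ a ∈ A, ∀ b ∈ A, a * b = b * a) ∧ p.Prime ∧
      (∀ g : G, g ^ p ∈ A) ∧ (∀ g h : G, ⁅g, h⁆ ∈ A)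

section

variable {S : Type} [DecidableEq S] [Fintype S]

theorem handled_meas {G : Type} [Group G] [Finite G] (h : Handled G) (φ : S → G) :
    Meas (fun w : List S => (w.map φ).prod) := by
  rcases h with h | ⟨A, p, hN, hA, hp, hpow, hcomm⟩
  · exact class_three_meas h φ
  · have : A.Normal := hN
    exact elem_index_meas A hA p hp hpow hcomm φ

variable {ι : Type} [Finite ι] {H : ι → Type} [∀ i, Group (H i)] [∀ i, Finite (H i)]

theorem handled_product (h : ∀ i, Handled (H i)) (φ : S → ∀ i, H i) (P : Set (∀ i, H i)) :
    HS 1 {w : List S | (w.map φ).prod ∈ P} := by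
  classical
  have h1 : Meas (fun w : List S => (w.map φ).prod) := by
    have h2 : Meas (fun w : List S => fun i => (w.map (fun a => φ a i)).prod) :=
      Meas.dpi (fun i => handled_meas (h i) (fun a => φ a i))
    convert h2 using 1
    funext w
    funext i
    exact list_prod_apply φ w i
  exact h1.set P

end

end Vale.Agent.Lib.P329
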