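import Vale.Agent.Lib.P329.Block

/-! Counting a letter at a level given by a unit-step walk on a cyclic group. -/

namespace Vale.Agent.Lib.P329

set_option linter.unusedSectionVars false

section AbsPos

variable {C S : Type} [DecidableEq C] [DecidableEq S] (step : C → S → C) (d : C → S → ℤ)

/-- The hypothesis of the abstract criterion from nonnegativity and eventual positivity. -/
lemma H_of_pos (hnn : ∀ c w, 0 ≤ netC step d c w)
    (hpos : ∀ (u : List S) (c : C), run step c u ≠ c →
      ∃ n : ℕ, 1 ≤ netC step d c (List.replicate n u).flatten)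
    (u : List S) (c : C) (k : ℕ) (hk : 1 ≤ k)
    (h1 : run step c (List.replicate k u).flatten = c)
    (h2 : netC step d c (List.replicate k u).flatten = 0) :
    run step c u = c := by
  by_contra hne
  obtain ⟨n, hn⟩ := hpos u c hne
  have hzero : ∀ N : ℕ, netC step d c (List.replicate (k * N) u).flatten = 0 := by
    intro N
    induction N with
    | zero => simp
    | succ N ih =>
      rw [mul_add, mul_one, add_comm, rep_add, netC_append, h2, h1, ih, add_zero]
  obtain ⟨j, hj⟩ : ∃ j, k * n = n + j := by
    refine ⟨k * n - n, ?_⟩
    have : n ≤ k * n := Nat.le_mul_of_pos_left n (by omega)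
    omega
  have h3 := hzero n
  rw [hj, rep_add, netC_append] at h3
  have h4 := hnn (run step c (List.replicate n u).flatten) (List.replicate j u).flatten
  omega

end AbsPos

section Unit

variable {S : Type} [DecidableEq S] (τ : S → Bool) {m : ℕ} [NeZero m] (ρ : ZMod m)

/-- The step of the unit-level walk. -/
def ustep (c : ZMod m) (a : S) : ZMod m := if τ a then c + 1 else c

/-- The displacement of the unit-level walk: one on arrival at the level `ρ`, and `β a` when
the letter `a` is read at the level `ρ`. -/
def udisp (β : S → ℤ) (c : ZMod m) (a : S) : ℤ :=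
  if τ a then (if c + 1 = ρ then 1 else 0) else (if c = ρ then β a else 0)

/-- The number of letters of the word satisfying `τ`. -/
def tcount (w : List S) : ℕ := (w.filter (fun a => τ a)).length

@[simp] lemma tcount_nil : tcount τ [] = 0 := rfl
lemma tcount_cons (a : S) (w : List S) :
    tcount τ (a :: w) = (if τ a then 1 else 0) + tcount τ w := by
  unfold tcount
  by_cases h : τ a
  · simp [h]
    omega
  · simp [h]

lemma tcount_append (u v : List S) : tcount τ (u ++ v) = tcount τ u + tcount τ v := by
  simp [tcount]

lemma tcount_replicate (u : List S) (n : ℕ) :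
    tcount τ (List.replicate n u).flatten = n * tcount τ u := by
  induction n with
  | zero => simp
  | succ n ih =>
    rw [List.replicate_succ, List.flatten_cons, tcount_append, ih]
    ring

lemma run_ustep (c : ZMod m) (w : List S) :
    run (ustep τ) c w = c + (tcount τ w : ZMod m) := by
  induction w generalizing c with
  | nil => simp
  | cons a w ih =>
    rw [run_cons, ih, tcount_cons]
    unfold ustep
    by_cases h : τ a
    · simp only [h, if_true]
      push_cast
      ring
    · simp [h]

variable (β : S → ℤ)

lemma unet_nonneg (hβ : ∀ a, 0 ≤ β a) (c : ZMod m) (w : List S) :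
    0 ≤ netC (ustep τ) (udisp τ ρ β) c w := by
  induction w generalizing c with
  | nil => simp
  | cons a w ih =>
    rw [netC_cons]
    have h1 := ih (ustep τ c a)
    have h2 : 0 ≤ udisp τ ρ β c a := by
      unfold udisp
      split
      · split <;> simp
      · split
        · exact hβ a
        · exact le_rfl
    omega

/-- Enough level steps force an arrival at the root level. -/
lemma unet_arrive (hβ : ∀ a, 0 ≤ β a) (w : List S) (c : ZMod m)
    (hw : (ρ - c - 1 : ZMod m).val + 1 ≤ tcount τ w) :
    1 ≤ netC (ustep τ) (udisp τ ρ β) c w := by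
  induction w generalizing c with
  | nil => simp at hw
  | cons a w ih =>
    rw [netC_cons]
    rw [tcount_cons] at hw
    by_cases h : τ a
    · simp only [h, if_true] at hw
      by_cases h1 : c + 1 = ρ
      · have h2 : udisp τ ρ β c a = 1 := by simp [udisp, h, h1]
        have h3 := unet_nonneg τ ρ β hβ (ustep τ c a) w
        omega
      · have h2 : udisp τ ρ β c a = 0 := by simp [udisp, h, h1]
        have hs : ustep τ c a = c + 1 := by simp [ustep, h]
        rw [h2, hs, zero_add]
        apply ih
        have h3 : (ρ - (c + 1) - 1 : ZMod m) + 1 = ρ - c - 1 := by ring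
        have h4 : (ρ - (c + 1) - 1 : ZMod m) + 1 ≠ 0 := by
          rw [h3]
          intro h5
          apply h1
          have : ρ - c - 1 + (c + 1) = 0 + (c + 1) := by rw [h5]
          rw [zero_add] at this
          rw [← this]
          ring
        have h5 := val_succ_of_ne _ h4
        rw [h3] at h5
        omega
    · have hb : τ a = false := by simpa using h
      have hs : ustep τ c a = c := by simp [ustep, hb]
      simp only [hb, Bool.false_eq_true, if_false, zero_add] at hw
      have h2 : 0 ≤ udisp τ ρ β c a := by
        unfold udisp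
        rw [if_neg h]
        split
        · exact hβ a
        · exact le_rfl
      rw [hs]
      have h3 := ih c hw
      omega

variable [Finite S]

/-- The walk has star height at most one. -/
theorem unit_meas (n : ℕ) [NeZero n] (hβ0 : ∀ a, 0 ≤ β a) (hβ1 : ∀ a, β a ≤ 1) (c : ZMod m) :
    Meas (fun w : List S => (run (ustep τ) c w,
      ((netC (ustep τ) (udisp τ ρ β) c w : ℤ) : ZMod n))) := by
  have hd : ∀ c a, |udisp τ ρ β c a| ≤ 1 := by
    intro c a
    rw [abs_le]
    unfold udisp
    split
    · split <;> simp
    · split
      · exact ⟨by have := hβ0 a; omega, hβ1 a⟩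
      · simp
  have harr : ∀ c a, udisp τ ρ β c a ≠ 0 → ustep τ c a = ρ := by
    intro c a h
    unfold udisp at h
    unfold ustep
    by_cases h1 : τ a
    · simp only [h1, if_true] at h ⊢
      by_cases h2 : c + 1 = ρ
      · exact h2
      · simp [h2] at h
    · simp only [h1, if_false] at h ⊢
      by_cases h2 : c = ρ
      · exact h2
      · simp [h2] at h
  have hpos : ∀ (u : List S) (c : ZMod m), run (ustep τ) c u ≠ c →
      ∃ k : ℕ, 1 ≤ netC (ustep τ) (udisp τ ρ β) c (List.replicate k u).flatten := by
    intro u c hu
    have h0 : tcount τ u ≠ 0 := by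
      intro h
      apply hu
      rw [run_ustep, h]
      simp
    refine ⟨(ρ - c - 1 : ZMod m).val + 1, ?_⟩
    apply unet_arrive τ ρ β hβ0
    rw [tcount_replicate]
    exact Nat.le_mul_of_pos_right _ (Nat.pos_of_ne_zero h0)
  have hroot : RootAp (qstep (ustep τ) (udisp τ ρ β) n) (qroot n ρ) :=
    abstract_rootAp hd harr (fun u c k hk h1 h2 =>
      H_of_pos _ _ (unet_nonneg τ ρ β hβ0) hpos u c k hk h1 h2)
  rintro ⟨c', b⟩
  have := HS1_of_RootAp _ _ hroot (c, 0) (c', b)
  convert this using 1
  ext w
  rw [Set.mem_ofPred_eq, Set.mem_ofPred_eq, run_qstep, zero_add]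

end Unit

end Vale.Agent.Lib.P329
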