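import Vale.Agent.Lib.P329.Automaton

/-! The two-level walk automata. -/

namespace Vale.Agent.Lib.P329

section Val

variable {m : ℕ} [NeZero m]

set_option linter.unusedSectionVars false

lemma val_succ_of_ne (x : ZMod m) (h : x + 1 ≠ 0) : (x + 1).val = x.val + 1 := by
  by_cases hm : m = 1
  · subst hm
    exact absurd (Subsingleton.elim _ _) h
  · have : Fact (1 < m) := ⟨by have := NeZero.ne m; omega⟩
    have h1 : x.val + (1 : ZMod m).val < m := by
      rw [ZMod.val_one]
      have h2 := ZMod.val_lt x
      by_contra h3
      have h4 : x.val + 1 = m := by omega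
      apply h
      have h5 : ((x.val + 1 : ℕ) : ZMod m) = 0 := by rw [h4]; simp
      simpa using h5
    rw [ZMod.val_add_of_lt h1, ZMod.val_one]

lemma val_step (n : ZMod m) (d : ℤ) (hd : |d| ≤ 1) (h0 : n ≠ 0) (h1 : n + (d : ZMod m) ≠ 0) :
    ((n + (d : ZMod m)).val : ℤ) = n.val + d := by
  have hd' : d = -1 ∨ d = 0 ∨ d = 1 := by
    rw [abs_le] at hd
    omega
  rcases hd' with rfl | rfl | rfl
  · have h2 := val_succ_of_ne (n - 1) (by simpa using h0)
    have h3 : n - 1 + 1 = n := by ring
    rw [h3] at h2
    simp only [Int.reduceNeg, Int.cast_neg, Int.cast_one, ← sub_eq_add_neg]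
    omega
  · simp
  · have h2 := val_succ_of_ne n (by simpa using h1)
    simp only [Int.cast_one]
    omega

end Val

section Walk

set_option linter.unusedSectionVars false

variable {S : Type} (τ : S → Bool) (D : S → ℤ) (m : ℕ)

/-- The transition function of the two-level walk. -/
def wdelta : Bool × ZMod m → S → Bool × ZMod m
  | (false, n), a => (τ a, n + (D a : ZMod m))
  | (true, n), a => (!τ a, n)

/-- The level reached. -/
def lev : Bool → List S → Bool
  | e, [] => e
  | e, a :: w => lev (xor e (τ a)) w

/-- The integer displacement of the walk. -/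
def net : Bool → List S → ℤ
  | _, [] => 0
  | false, a :: w => D a + net (τ a) w
  | true, a :: w => net (!τ a) w

@[simp] lemma lev_nil (e : Bool) : lev τ e ([] : List S) = e := rfl
@[simp] lemma lev_cons (e : Bool) (a : S) (w : List S) :
    lev τ e (a :: w) = lev τ (xor e (τ a)) w := rfl
@[simp] lemma net_nil (e : Bool) : net τ D e ([] : List S) = 0 := by cases e <;> rfl
@[simp] lemma net_false_cons (a : S) (w : List S) :
    net τ D false (a :: w) = D a + net τ D (τ a) w := rfl
@[simp] lemma net_true_cons (a : S) (w : List S) :
    net τ D true (a :: w) = net τ D (!τ a) w := rfl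

lemma lev_append (e : Bool) (u v : List S) : lev τ e (u ++ v) = lev τ (lev τ e u) v := by
  induction u generalizing e with
  | nil => rfl
  | cons a u ih => exact ih _

lemma lev_eq_xor (e : Bool) (u : List S) : lev τ e u = xor e (lev τ false u) := by
  induction u generalizing e with
  | nil => simp
  | cons a u ih =>
    simp only [lev_cons, Bool.false_bne]
    rw [ih (xor e (τ a)), ih (τ a)]
    cases e <;> cases τ a <;> cases lev τ false u <;> rfl

lemma net_append (e : Bool) (u v : List S) :
    net τ D e (u ++ v) = net τ D e u + net τ D (lev τ e u) v := by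
  induction u generalizing e with
  | nil => simp
  | cons a u ih =>
    cases e
    · simp only [List.cons_append, net_false_cons, lev_cons, Bool.false_bne]
      rw [ih]
      ring
    · simp only [List.cons_append, net_true_cons, lev_cons]
      rw [ih]
      cases τ a <;> rfl

lemma net_sum (u : List S) : net τ D false u + net τ D true u = (u.map D).sum := by
  induction u with
  | nil => simp
  | cons a u ih =>
    simp only [net_false_cons, net_true_cons, List.map_cons, List.sum_cons]
    cases h : τ a
    · simp only [Bool.not_false]
      rw [← ih]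
      ring
    · simp only [Bool.not_true]
      rw [← ih]
      ring

variable [NeZero m]

lemma run_walk (e : Bool) (n : ZMod m) (w : List S) :
    run (wdelta τ D m) (e, n) w = (lev τ e w, n + (net τ D e w : ZMod m)) := by
  induction w generalizing e n with
  | nil => simp
  | cons a w ih =>
    cases e
    · simp only [run_cons, wdelta, lev_cons, net_false_cons, Bool.false_bne]
      rw [ih]
      simp [add_assoc]
    · simp only [run_cons, wdelta, lev_cons, net_true_cons]
      rw [ih]
      cases h : τ a <;> simp

/-- The root of the walk. -/
abbrev wroot : Bool × ZMod m := (false, 0)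

lemma dead_end {w : List S} {q' : Bool × ZMod m}
    (h : arun (wdelta τ D m) (wroot m) (live (true, 0)) w = live q') : q' = (true, 0) := by
  induction w with
  | nil => simpa using h.symm
  | cons a w ih =>
    rw [arun_cons] at h
    cases ha : τ a
    · have h1 : wdelta τ D m (true, 0) a = (true, 0) := by simp [wdelta, ha]
      have h2 : astep (wdelta τ D m) (wroot m) (live (true, (0 : ZMod m))) a = live (true, 0) := by
        rw [astep_live _ _ _ _ (by simp [h1]), h1]
      rw [h2] at h
      exact ih h
    · have h1 : wdelta τ D m (true, 0) a = wroot m := by simp [wdelta, ha]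
      rw [astep_root _ _ _ _ h1] at h
      exact absurd h (arun_fin_ne_live _ _ _ _)

lemma val_path (hD : ∀ a, |D a| ≤ 1) {w : List S} {e e' : Bool} {n n' : ZMod m}
    (h : arun (wdelta τ D m) (wroot m) (live (e, n)) w = live (e', n')) (h0 : n ≠ 0)
    (h1 : n' ≠ 0) : (n'.val : ℤ) = n.val + net τ D e w := by
  induction w generalizing e n with
  | nil =>
    simp only [arun_nil, Option.some.injEq, Prod.mk.injEq] at h
    obtain ⟨-, rfl⟩ := h
    simp
  | cons a w ih =>
    rw [arun_cons] at h
    cases e
    · have hδ : wdelta τ D m (false, n) a = (τ a, n + (D a : ZMod m)) := rfl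
      by_cases hr : wdelta τ D m (false, n) a = wroot m
      · rw [astep_root _ _ _ _ hr] at h
        exact absurd h (arun_fin_ne_live _ _ _ _)
      · rw [astep_live _ _ _ _ hr, hδ] at h
        by_cases hz : n + (D a : ZMod m) = 0
        · have hτ : τ a = true := by
            by_contra hτ
            apply hr
            rw [hδ, hz]
            simp [Bool.eq_false_iff.2 hτ]
          rw [hτ, hz] at h
          have := dead_end τ D m h
          simp only [Prod.mk.injEq] at this
          exact absurd this.2 h1
        · have h2 := ih h hz
          rw [val_step n (D a) (hD a) h0 hz] at h2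
          rw [net_false_cons, h2]
          ring
    · have hδ : wdelta τ D m (true, n) a = (!τ a, n) := rfl
      have hr : wdelta τ D m (true, n) a ≠ wroot m := by
        rw [hδ]
        intro h3
        simp only [Prod.mk.injEq] at h3
        exact h0 h3.2
      rw [astep_live _ _ _ _ hr, hδ] at h
      rw [net_true_cons]
      exact ih h h0

lemma arun_replicate (δ : Bool × ZMod m → S → Bool × ZMod m) (r : Bool × ZMod m)
    (u : List S) (k : ℕ) (s : St (Bool × ZMod m)) :
    arun δ r s (List.replicate k u).flatten = (fun s => arun δ r s u)^[k] s := by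
  induction k generalizing s with
  | zero => rfl
  | succ k ih =>
    rw [List.replicate_succ, List.flatten_cons, arun_append, ih, Function.iterate_succ_apply]

lemma net_replicate (e : Bool) (u : List S) (hu : lev τ e u = e) (k : ℕ) :
    net τ D e (List.replicate k u).flatten = k * net τ D e u := by
  induction k with
  | zero => simp
  | succ k ih =>
    rw [List.replicate_succ, List.flatten_cons, net_append, hu, ih]
    push_cast
    ring

lemma nonlive_iterate (δ : Bool × ZMod m → S → Bool × ZMod m) (r : Bool × ZMod m) (u : List S)
    {s : St (Bool × ZMod m)} (hs : ∀ p, s ≠ live p) (j : ℕ) (p : Bool × ZMod m) :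
    (fun s => arun δ r s u)^[j] s ≠ live p := by
  induction j generalizing s with
  | zero => exact hs p
  | succ j ih =>
    rw [Function.iterate_succ_apply]
    apply ih
    intro p'
    rcases s with _ | _ | q
    · rw [arun_none]; simp
    · exact arun_fin_ne_live δ r u p'
    · exact absurd rfl (hs q)

theorem walk_rootAp (hD : ∀ a, |D a| ≤ 1) (hO : ∀ u : List S, lev τ false u = true →
    (u.map D).sum ≠ 0) : RootAp (wdelta τ D m) (wroot m) := by
  intro u q k hk hq
  obtain ⟨e, n⟩ := q
  set δ := wdelta τ D m with hδ
  set r := wroot m with hr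
  -- the first iterate is live
  obtain ⟨q₁, hq₁⟩ : ∃ q₁, arun δ r (live (e, n)) u = live q₁ := by
    by_contra hcon
    push Not at hcon
    obtain ⟨j, rfl⟩ : ∃ j, k = j + 1 := ⟨k - 1, by omega⟩
    rw [Function.iterate_succ_apply] at hq
    exact nonlive_iterate m δ r u (s := arun δ r (live (e, n)) u) hcon j (e, n) hq
  have hrun : run δ (e, n) u = q₁ := arun_live_eq δ r hq₁
  rw [hδ, run_walk] at hrun
  by_cases hn : n = 0
  · subst hn
    cases e
    · have hw := arun_eq_root δ r (s := live r) (w := (List.replicate k u).flatten)
        (by rw [arun_replicate]; exact hq)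
      have hu : u = [] := by
        obtain ⟨j, rfl⟩ : ∃ j, k = j + 1 := ⟨k - 1, by omega⟩
        rw [List.replicate_succ, List.flatten_cons] at hw
        exact (List.append_eq_nil_iff.1 hw).1
      subst hu
      rfl
    · have := dead_end τ D m hq₁
      rw [hq₁, this]
  · -- the loop on the doubled word
    have hdouble : (fun s => arun δ r s (u ++ u)) = (fun s => arun δ r s u)^[2] := by
      funext s
      simp [arun_append]
    have hloop : arun δ r (live (e, n)) (List.replicate k (u ++ u)).flatten = live (e, n) := by
      rw [arun_replicate, hdouble, ← Function.iterate_mul, mul_comm, Function.iterate_mul]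
      change (fun s => arun δ r s u)^[k] ((fun s => arun δ r s u)^[k] (live (e, n))) = _
      rw [hq, hq]
    have hv := val_path τ D m hD hloop hn hn
    have hnet0 : net τ D e (List.replicate k (u ++ u)).flatten = 0 := by omega
    have hlev2 : lev τ e (u ++ u) = e := by
      rw [lev_append, lev_eq_xor τ (lev τ e u) u, lev_eq_xor τ e u]
      cases e <;> cases lev τ false u <;> rfl
    rw [net_replicate τ D e (u ++ u) hlev2] at hnet0
    have hk0 : (k : ℤ) ≠ 0 := by exact_mod_cast (by omega : k ≠ 0)
    have hnet1 : net τ D e (u ++ u) = 0 := by
      rcases mul_eq_zero.1 hnet0 with h | h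
      · exact absurd h hk0
      · exact h
    rw [net_append] at hnet1
    by_cases hl : lev τ e u = e
    · rw [hl] at hnet1
      have hnet2 : net τ D e u = 0 := by omega
      rw [hnet2, hl] at hrun
      simp only [Int.cast_zero, add_zero] at hrun
      rw [hq₁, ← hrun]
    · exfalso
      have hne : lev τ e u = !e := by
        revert hl
        generalize lev τ e u = b
        cases e <;> cases b <;> simp
      have hlf : lev τ false u = true := by
        have h1 := lev_eq_xor τ e u
        rw [hne] at h1
        revert h1
        generalize lev τ false u = b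
        cases e <;> cases b <;> simp
      apply hO u hlf
      rw [← net_sum τ D u]
      rw [hne] at hnet1
      cases e
      · simpa using hnet1
      · simp only [Bool.not_true] at hnet1
        omega

variable [Finite S]

/-- Counting along the walk. -/
theorem walk_count (hD : ∀ a, |D a| ≤ 1) (hO : ∀ u : List S, lev τ false u = true →
    (u.map D).sum ≠ 0) (e : Bool) (k : ZMod m) :
    HS 1 {w : List S | ((net τ D e w : ℤ) : ZMod m) = k} := by
  have h := fun e' : Bool => HS1_of_RootAp (wdelta τ D m) (wroot m) (walk_rootAp τ D m hD hO)
    (e, 0) (e', k)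
  convert HS.iUnion h using 1
  ext w
  simp only [Set.mem_ofPred_eq, Set.mem_iUnion, run_walk, zero_add, Prod.mk.injEq]
  constructor
  · intro hw
    exact ⟨_, rfl, hw⟩
  · rintro ⟨_, -, hw⟩
    exact hw

theorem walk_lev (hD : ∀ a, |D a| ≤ 1) (hO : ∀ u : List S, lev τ false u = true →
    (u.map D).sum ≠ 0) (e b : Bool) :
    HS 1 {w : List S | lev τ e w = b} := by
  have h := HS1_of_RootAp (wdelta τ D 1) (wroot 1) (walk_rootAp τ D 1 hD hO) (e, 0) (b, 0)
  convert h using 1
  ext w
  simp only [Set.mem_ofPred_eq, run_walk, zero_add, Prod.mk.injEq]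
  constructor
  · intro hw
    exact ⟨hw, Subsingleton.elim _ _⟩
  · rintro ⟨hw, -⟩
    exact hw

end Walk

end Vale.Agent.Lib.P329
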